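import Vale.Agent.P224.R2.H176.F3.Fin
import Vale.Agent.P224.R2.H433.Num

/-!
The moment data of the flow for m = 3 in the form of helper433's certificate.
-/

namespace Vale.Agent.P224.R2.H176.F3

open MeasureTheory Set Real Vale.Agent.P224.R2.H178 Vale.Agent.P224.R2.H433

lemma momOk {F : ℝ → ℝ} {t q : List ℚ} {δ : ℚ} {E : ℚ}
    (h : ∀ n ≤ 12, |(∫ T in (0 : ℝ)..1, T ^ n * F T) - ((t.getD n 0 : ℚ) : ℝ)| ≤ (δ : ℝ))
    (hq : q.length = 13)
    (hc : (List.range 13).all (fun n => decide (|t.getD n 0 - q.getD n 0| + δ ≤ E)) = true) :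
    MomOk F q E := by
  intro n hn
  rw [hq] at hn
  rw [List.all_eq_true] at hc
  have h1 := h n (by omega)
  have h2 := hc n (List.mem_range.2 hn)
  rw [decide_eq_true_eq] at h2
  have h3 : |((t.getD n 0 : ℚ) : ℝ) - (q.getD n 0 : ℚ)| + δ ≤ E := by exact_mod_cast h2
  have := abs_sub_le (∫ T in (0 : ℝ)..1, T ^ n * F T) ((t.getD n 0 : ℚ) : ℝ) (q.getD n 0 : ℚ)
  linarith

/-- the moments of the flow -/
theorem momAll3 : MomAll Flow3.u3 where
  e := momOk (t := tabE) (δ := 1 / 10 ^ 14) (fun n hn => by push_cast; exact mom_e n hn)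
    (by decide +kernel) (by decide +kernel)
  ε := momOk (t := tabEps) (δ := 1 / 10 ^ 14) (fun n hn => by push_cast; exact mom_ε n hn)
    (by decide +kernel) (by decide +kernel)
  ρ := momOk (t := tabRho) (δ := 1 / 10 ^ 14) (fun n hn => by push_cast; exact mom_ρ n hn)
    (by decide +kernel) (by decide +kernel)
  w := momOk (t := tabTy) (δ := 1 / 10 ^ 14) (fun n hn => by push_cast; exact mom_Ty n hn)
    (by decide +kernel) (by decide +kernel)
  r := momOk (t := tabR) (δ := 1 / 10 ^ 11) (fun n hn => by push_cast; exact mom_r n hn)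
    (by decide +kernel) (by decide +kernel)

theorem fInt3 : FInt Flow3.u3 where
  e := ii_e
  ε := ii_ε
  ρ := ii_ρ
  w := ii_Ty
  r := ii_r'

theorem x1_3 : 1 / 10 ≤ -Flow3.ρ 0 := by
  have h := abs_le.1 ρ_zero_val
  norm_num at h ⊢
  linarith [h.2]

theorem x2_3 : -Flow3.ρ 0 ≤ 129 / 1250 := by
  have h := abs_le.1 ρ_zero_val
  norm_num at h ⊢
  linarith [h.1]

theorem r1_3 : 0 ≤ Flow3.r0 := by
  have h := abs_le.1 r0_val
  norm_num at h ⊢
  linarith [h.1]

theorem r2_3 : Flow3.r0 ≤ 31 / 100 := by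
  have h := abs_le.1 r0_val
  norm_num at h ⊢
  linarith [h.2]

end Vale.Agent.P224.R2.H176.F3
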