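import Vale.Agent.P224.R2.H176.F3.RM

/-!
Tables of the moments of the functions of the flow for m = 3.
-/

namespace Vale.Agent.P224.R2.H176.F3

open MeasureTheory Set Real Filter Vale.Agent.P224.R2.H178.Flow3
open scoped Topology

def iW (n : ℕ) : Iv := Ws.getD n (0, 0)

def iG (n : ℕ) : Iv := Gs.getD n (0, 0)

lemma mW {n : ℕ} (hn : n < 25) : Mem (iW n) (Wm n) := by
  have h1 : Ws.length = 25 := by decide +kernel
  have h := Ws_mem.get (k := n) (by rw [h1]; exact hn)
  rwa [zero_add] at h

lemma mG {n : ℕ} (hn : n < 33) : Mem (iG n) (Gm n) := by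
  have h1 : Gs.length = 33 := by decide +kernel
  have h := Gs_mem.get (k := n) (by rw [h1]; exact hn)
  rwa [zero_add] at h

lemma Mem.cast {I : Iv} {x y : ℝ} (h : Mem I x) (hxy : x = y) : Mem I y := hxy ▸ h

def iE (n : ℕ) : Iv :=
  iadd (iadd (ismul (1 / (12 * (n + 2) * (n + 4)) + 1 / (24 * (n + 4)) - 11 / 24) (iW (n + 3)))
    (iadd (ismul (1 / (6 * (n + 2)) - 1 / 24) (iW (n + 1))) (ismul (-1 / 2) (iW (n + 2)))))
    (iadd (ismul (27 / 8) (iG (n + 1))) (iadd (ismul (-9 / 2) (iG (n + 2)))
      (ismul (9 / 8) (iG (n + 3)))))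

lemma mE {n : ℕ} (hn : n < 22) : Mem (iE n) (2 * √2 * ∫ T in (0 : ℝ)..1, T ^ n * e T) := by
  refine ((((mW (n := n + 3) (by omega)).smul _).add (((mW (n := n + 1) (by omega)).smul _).add
    ((mW (n := n + 2) (by omega)).smul _))).add (((mG (n := n + 1) (by omega)).smul _).add
    (((mG (n := n + 2) (by omega)).smul _).add ((mG (n := n + 3) (by omega)).smul _)))).cast ?_
  rw [(hI_e n).2]
  push_cast
  have : (n : ℝ) + 2 ≠ 0 := by positivity
  have : (n : ℝ) + 4 ≠ 0 := by positivity
  field_simp
  ring

/-- the moment of e / T -/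
def iE' : Iv :=
  iadd (iadd (ismul (-5 / 12) (iW 2)) (iadd (ismul (1 / 8) (iW 0)) (ismul (-1 / 2) (iW 1))))
    (iadd (ismul (27 / 8) (iG 0)) (iadd (ismul (-9 / 2) (iG 1)) (ismul (9 / 8) (iG 2))))

lemma mE' : Mem iE' (2 * √2 * ∫ T in (0 : ℝ)..1, T ^ 0 * (e T / T)) := by
  refine ((((mW (n := 2) (by norm_num)).smul _).add (((mW (n := 0) (by norm_num)).smul _).add
    ((mW (n := 1) (by norm_num)).smul _))).add (((mG (n := 0) (by norm_num)).smul _).add
    (((mG (n := 1) (by norm_num)).smul _).add ((mG (n := 2) (by norm_num)).smul _)))).cast ?_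
  rw [(hI_e' 0).2]
  push_cast
  ring

def iY (n : ℕ) : Iv :=
  iadd (iadd (ismul (1 / (12 * (n + 2) * (n + 4)) + 1 / (24 * (n + 4)) + 1 / 24) (iW (n + 3)))
    (iadd (ismul (1 / (6 * (n + 2)) + 11 / 24) (iW (n + 1))) (ismul (1 / 2) (iW (n + 2)))))
    (iadd (ismul (27 / 4) (iG (n + 1))) (ismul (-9 / 4) (iG (n + 2))))

lemma mY {n : ℕ} (hn : n < 22) : Mem (iY n) (2 * √2 * ∫ T in (0 : ℝ)..1, T ^ n * (T * y T)) := by
  refine ((((mW (n := n + 3) (by omega)).smul _).add (((mW (n := n + 1) (by omega)).smul _).add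
    ((mW (n := n + 2) (by omega)).smul _))).add (((mG (n := n + 1) (by omega)).smul _).add
    ((mG (n := n + 2) (by omega)).smul _))).cast ?_
  rw [(hI_Ty n).2]
  push_cast
  have : (n : ℝ) + 2 ≠ 0 := by positivity
  have : (n : ℝ) + 4 ≠ 0 := by positivity
  field_simp
  ring

def iEps (n : ℕ) : Iv :=
  iadd (ismul (-(1 / ((n + 1) * (n + 3)) + 1 / (n + 3))) (iW (n + 2)))
    (ismul (2 / ((n + 3) * (n + 5)) + 1 / (n + 5)) (iW (n + 4)))

lemma mEps {n : ℕ} (hn : n < 21) : Mem (iEps n) (2 * √2 * ∫ T in (0 : ℝ)..1, T ^ n * ε T) := by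
  refine (((mW (n := n + 2) (by omega)).smul _).add ((mW (n := n + 4) (by omega)).smul _)).cast ?_
  rw [(hI_ε n).2]
  push_cast
  have : (n : ℝ) + 1 ≠ 0 := by positivity
  have : (n : ℝ) + 3 ≠ 0 := by positivity
  have : (n : ℝ) + 5 ≠ 0 := by positivity
  field_simp
  ring

def iRho (n : ℕ) : Iv := ismul (-(1 / ((n + 1) * (n + 3)))) (iW (n + 2))

lemma mRho {n : ℕ} (hn : n < 23) : Mem (iRho n) (2 * √2 * ∫ T in (0 : ℝ)..1, T ^ n * ρ T) := by
  refine ((mW (n := n + 2) (by omega)).smul _).cast ?_
  rw [(hI_ρ n).2]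
  push_cast
  have : (n : ℝ) + 1 ≠ 0 := by positivity
  have : (n : ℝ) + 3 ≠ 0 := by positivity
  field_simp

/-- moments of HH -/
def iH (n : ℕ) : Iv :=
  iadd (ismul (-(1 / (12 * (n + 2) * (n + 4))) - 1 / (24 * (n + 4)) - 1 / 24) (iW (n + 3)))
    (iadd (ismul (-(1 / (6 * (n + 2))) + 13 / 24) (iW (n + 1))) (ismul (1 / 2) (iW n)))

lemma mH {n : ℕ} (hn : n < 22) : Mem (iH n) (2 * √2 * ∫ T in (0 : ℝ)..1, T ^ n * HH T) := by
  refine (((mW (n := n + 3) (by omega)).smul _).add (((mW (n := n + 1) (by omega)).smul _).add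
    ((mW (n := n) (by omega)).smul _))).cast ?_
  rw [(hI_HH n).2]
  push_cast
  have : (n : ℝ) + 2 ≠ 0 := by positivity
  have : (n : ℝ) + 4 ≠ 0 := by positivity
  field_simp
  ring

def iT (k : ℕ) : Iv := iadd (iH (k + 1)) (ismul (-9) (is2 (sI k)))

lemma mT {k : ℕ} (hk : k < 21) (h0 : 0 ≤ (sI k).1) : Mem (iT k) (Rm (k + 1)) := by
  refine ((mH (n := k + 1) (by omega)).add (((mem_sI k).s2 h0).smul (-9))).cast ?_
  rw [Rm_top]
  push_cast
  ring

/-- one step down -/
def stepR (n : ℕ) : List Iv → Iv
  | _ :: B :: _ => ismul (1 / (n + 1)) (iadd (ismul (n + 4) B) (iE n))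
  | _ => (0, 0)

def downR : ℕ → List Iv → List Iv
  | 0, L => L
  | n + 1, L => downR n (stepR n L :: L)

lemma AM.stepR {n : ℕ} {L : List Iv} (hn : n < 22) (h : AM Rm (n + 1) L) (hl : 2 ≤ L.length) :
    Mem (stepR n L) (Rm n) := by
  match L, hl, h with
  | A :: B :: L, _, h =>
    have h1 := ((h.2.1.smul (n + 4)).add (mE hn)).smul (1 / (n + 1))
    refine h1.cast ?_
    have h2 := Rm_rec n
    unfold Em at h2
    push_cast
    rw [show n + 1 + 1 = n + 2 from rfl]
    field_simp
    linarith

lemma AM.downR : ∀ {n : ℕ} {L : List Iv}, n ≤ 22 → AM Rm n L → 2 ≤ L.length → AM Rm 0 (downR n L)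
  | 0, _, _, h, _ => h
  | n + 1, L, hn, h, hl => by
    rw [F3.downR]
    exact AM.downR (by omega) ⟨AM.stepR (by omega) h hl, h⟩ (by rw [List.length_cons]; omega)

/-- the normalised moments of r -/
def Rs : List Iv := [
  (134501665919092887/1000000000000000000, 134501665924931713/1000000000000000000),
  (23615338211904077/1000000000000000000, 23615338216639589/1000000000000000000),
  (759019868381461/100000000000000000, 7590198685274317/1000000000000000000),
  (3248328198542369/1000000000000000000, 129933128017463/40000000000000000),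
  (1646622621600239/1000000000000000000, 1646622622330093/1000000000000000000),
  (933943034172887/1000000000000000000, 93394303525529/100000000000000000),
  (114786448186799/200000000000000000, 286966120695077/500000000000000000),
  (374559956223279/1000000000000000000, 374559956944881/1000000000000000000),
  (51232881684567/200000000000000000, 256164408742147/1000000000000000000),
  (45472269917383/250000000000000000, 90944540097167/500000000000000000),
  (66590367672597/500000000000000000, 66590367792339/500000000000000000),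
  (100049305110013/1000000000000000000, 100049305513707/1000000000000000000),
  (76811068466383/1000000000000000000, 1536221373091/20000000000000000),
  (6008040469247/100000000000000000, 2403216200617/40000000000000000),
  (47760606859487/1000000000000000000, 47760607012373/1000000000000000000),
  (7701818985249/200000000000000000, 38509095192209/1000000000000000000),
  (31440888921039/1000000000000000000, 7860222262111/250000000000000000),
  (12978813527857/500000000000000000, 6489406819921/250000000000000000),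
  (21645547628239/1000000000000000000, 21645547736533/1000000000000000000),
  (18212756786807/1000000000000000000, 18212756978781/1000000000000000000),
  (15449608686253/1000000000000000000, 772480438989/50000000000000000)]

theorem Rs_mem : AM Rm 0 Rs := by
  have h : AM Rm 19 [iT 18, iT 19] :=
    ⟨mT (by norm_num) (by decide +kernel), mT (by norm_num) (by decide +kernel), trivial⟩
  exact (AM.downR (by norm_num) h (by simp)).mono (by decide +kernel)

lemma mR {n : ℕ} (hn : n < 21) : Mem (Rs.getD n (0, 0)) (2 * √2 * ∫ T in (0 : ℝ)..1, T ^ n * r T) := by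
  have h1 : Rs.length = 21 := by decide +kernel
  have h := Rs_mem.get (k := n) (by rw [h1]; exact hn)
  rwa [zero_add] at h

/-! ### the tables -/

/-- check of a value -/
def chk (I : Iv) (t δ : ℚ) : Bool := decide (-4 ≤ I.1) && decide (I.2 ≤ 4) &&
  decide (t - δ + 1 / 10 ^ 19 ≤ I.1 * (141421356237309504880 / 100000000000000000000) / 4) &&
  decide (I.2 * (141421356237309504880 / 100000000000000000000) / 4 ≤ t + δ - 1 / 10 ^ 19)

lemma fin {I : Iv} {m : ℝ} {t δ : ℚ} (h : Mem I (2 * √2 * m)) (hc : chk I t δ = true) :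
    |m - (t : ℝ)| ≤ (δ : ℝ) := by
  unfold chk at hc
  simp only [Bool.and_eq_true, decide_eq_true_eq] at hc
  obtain ⟨⟨⟨h1, h2⟩, h3⟩, h4⟩ := hc
  have h1' : ((-4 : ℚ) : ℝ) ≤ I.1 := by exact_mod_cast h1
  have h2' : (I.2 : ℝ) ≤ ((4 : ℚ) : ℝ) := by exact_mod_cast h2
  have h3' : ((t - δ + 1 / 10 ^ 19 : ℚ) : ℝ)
      ≤ ((I.1 * (141421356237309504880 / 100000000000000000000) / 4 : ℚ) : ℝ) := by
    exact_mod_cast h3
  have h4' : ((I.2 * (141421356237309504880 / 100000000000000000000) / 4 : ℚ) : ℝ)
      ≤ ((t + δ - 1 / 10 ^ 19 : ℚ) : ℝ) := by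
    exact_mod_cast h4
  push_cast at h1' h2' h3' h4'
  unfold Mem at h
  have hs1 := sqrt2_lo
  have hs2 := sqrt2_hi
  have hsq : √2 * √2 = 2 := mul_self_sqrt (by norm_num)
  set X : ℝ := 2 * √2 * m with hX
  have hm : m = X * √2 / 4 := by
    rw [hX]
    have : 2 * √2 * m * √2 / 4 = (√2 * √2) * m / 2 := by ring
    rw [this, hsq]
    ring
  have hX1 : |X| ≤ 4 := by
    rw [abs_le]
    constructor <;> linarith [h.1, h.2]
  have hd : |X * (√2 - 141421356237309504880 / 100000000000000000000)| ≤ 4 * (1 / 10 ^ 20) := by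
    rw [abs_mul]
    refine mul_le_mul hX1 ?_ (abs_nonneg _) (by norm_num)
    rw [abs_of_nonneg (by linarith)]
    norm_num at hs2 ⊢
    linarith
  rw [abs_le] at hd
  have e : m = X * (141421356237309504880 / 100000000000000000000) / 4
      + X * (√2 - 141421356237309504880 / 100000000000000000000) / 4 := by
    rw [hm]
    ring
  rw [abs_le, e]
  norm_num at h3' h4' hd ⊢
  constructor <;> linarith [h.1, h.2, hd.1, hd.2]

lemma all_chk {f : ℕ → Iv} {t : List ℚ} {δ : ℚ}
    (h : (List.range 13).all (fun n => chk (f n) (t.getD n 0) δ) = true) {n : ℕ} (hn : n ≤ 12) :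
    chk (f n) (t.getD n 0) δ = true := by
  rw [List.all_eq_true] at h
  exact h n (List.mem_range.2 (by omega))

/-- moments of e -/
def tabE : List ℚ := [
  18409679053191/500000000000000, 13695348184849/1250000000000000,
  45576073744517/10000000000000000, 570609677237/250000000000000,
  12875195364477/10000000000000000, 7893498755879/10000000000000000,
  5147318767989/10000000000000000, 3520330309061/10000000000000000,
  2500721498089/10000000000000000, 916144923323/5000000000000000,
  172195142867/1250000000000000, 264621976923/2500000000000000, 165727572233/2000000000000000]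

/-- moments of ε -/
def tabEps : List ℚ := [
  -212690238647881/5000000000000000, -101390013572361/10000000000000000,
  -7288779221613/2000000000000000, -8070574025519/5000000000000000,
  -1633124351157/2000000000000000, -36296030723/80000000000000,
  -2704323332363/10000000000000000, -1702775942059/10000000000000000,
  -224094230659/2000000000000000, -764531500751/10000000000000000,
  -537762292009/10000000000000000, -388164037503/10000000000000000,
  -35811715851/1250000000000000]

/-- moments of ρ -/
def tabRho : List ℚ := [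
  -246107141595939/10000000000000000, -5536939436521/1250000000000000,
  -13366761179223/10000000000000000, -5249422150691/10000000000000000,
  -243187837269/1000000000000000, -631622668901/5000000000000000,
  -713960942261/10000000000000000, -53821419053/1250000000000000, -10935869839/400000000000000,
  -90515259573/5000000000000000, -124115100497/10000000000000000,
  -87628872133/10000000000000000, -6344126093/1000000000000000]

/-- moments of T y -/
def tabTy : List ℚ := [
  335792937399361/625000000000000, 704589908122337/2500000000000000,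
  1803413725927219/10000000000000000, 20011433635407/156250000000000,
  194014194716077/2000000000000000, 30708544392277/400000000000000,
  125443310191003/2000000000000000, 104992980892883/2000000000000000,
  111950506893523/2500000000000000, 193936614163067/5000000000000000,
  170113891651113/5000000000000000, 30160576536417/1000000000000000,
  269781760349849/10000000000000000]

/-- moments of r -/
def tabR : List ℚ := [
  4755352002717/100000000000000, 417464144783/50000000000000, 13417702401/5000000000000,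
  114845744869/100000000000000, 29108450551/50000000000000, 16509936327/50000000000000,
  20291568983/100000000000000, 13242694263/100000000000000, 7075609/78125000000,
  1607687523/25000000000000, 4708650059/100000000000000, 442159639/12500000000000,
  678920343/25000000000000]

theorem mom_e (n : ℕ) (hn : n ≤ 12) :
    |(∫ T in (0 : ℝ)..1, T ^ n * e T) - ((tabE.getD n 0 : ℚ) : ℝ)| ≤ 1 / 10 ^ 14 := by
  have h := fin (mE (n := n) (by omega))
    (all_chk (f := iE) (t := tabE) (δ := 1 / 10 ^ 14) (by decide +kernel) hn)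
  push_cast at h
  exact h

theorem mom_ε (n : ℕ) (hn : n ≤ 12) :
    |(∫ T in (0 : ℝ)..1, T ^ n * ε T) - ((tabEps.getD n 0 : ℚ) : ℝ)| ≤ 1 / 10 ^ 14 := by
  have h := fin (mEps (n := n) (by omega))
    (all_chk (f := iEps) (t := tabEps) (δ := 1 / 10 ^ 14) (by decide +kernel) hn)
  push_cast at h
  exact h

theorem mom_ρ (n : ℕ) (hn : n ≤ 12) :
    |(∫ T in (0 : ℝ)..1, T ^ n * ρ T) - ((tabRho.getD n 0 : ℚ) : ℝ)| ≤ 1 / 10 ^ 14 := by
  have h := fin (mRho (n := n) (by omega))
    (all_chk (f := iRho) (t := tabRho) (δ := 1 / 10 ^ 14) (by decide +kernel) hn)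
  push_cast at h
  exact h

theorem mom_Ty (n : ℕ) (hn : n ≤ 12) :
    |(∫ T in (0 : ℝ)..1, T ^ n * (T * y T)) - ((tabTy.getD n 0 : ℚ) : ℝ)| ≤ 1 / 10 ^ 14 := by
  have h := fin (mY (n := n) (by omega))
    (all_chk (f := iY) (t := tabTy) (δ := 1 / 10 ^ 14) (by decide +kernel) hn)
  push_cast at h
  exact h

theorem mom_r (n : ℕ) (hn : n ≤ 12) :
    |(∫ T in (0 : ℝ)..1, T ^ n * r T) - ((tabR.getD n 0 : ℚ) : ℝ)| ≤ 1 / 10 ^ 11 := by
  have h := fin (mR (n := n) (by omega))
    (all_chk (f := fun n => Rs.getD n (0, 0)) (t := tabR) (δ := 1 / 10 ^ 11) (by decide +kernel) hn)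
  push_cast at h
  exact h

theorem ρ_zero_val : |ρ 0 - (-1031975898158073/10000000000000000 : ℝ)| ≤ 1 / 10 ^ 14 := by
  have h1 : Mem (ismul (-1 / 2) (iW 1)) (2 * √2 * ρ 0) := by
    refine ((mW (n := 1) (by norm_num)).smul (-1 / 2)).cast ?_
    rw [ρ0_eq]
    push_cast
    ring
  have h := fin h1 (t := -1031975898158073/10000000000000000) (δ := 1 / 10 ^ 14) (by decide +kernel)
  push_cast at h
  exact h

theorem r0_val : |r0 - (3836047649199/12500000000000 : ℝ)| ≤ 1 / 10 ^ 11 := by
  have h1 : Mem (iadd (ismul 3 (Rs.getD 1 (0, 0))) iE') (2 * √2 * r0) := by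
    refine (((mR (n := 1) (by norm_num)).smul 3).add mE').cast ?_
    rw [r0_rec]
    unfold Rm
    push_cast
    ring
  have h := fin h1 (t := 3836047649199/12500000000000) (δ := 1 / 10 ^ 11) (by decide +kernel)
  push_cast at h
  exact h

/-! ### integrability -/

lemma ii_of_HI {F : ℝ → ℝ} {x : ℝ} (h : HI (fun T => T ^ 0 * F T) x) :
    IntervalIntegrable F volume 0 1 := by
  have h1 := h.1
  simp only [pow_zero, one_mul] at h1
  exact h1

theorem ii_e : IntervalIntegrable e volume 0 1 := ii_of_HI (hI_e 0)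
theorem ii_ε : IntervalIntegrable ε volume 0 1 := ii_of_HI (hI_ε 0)
theorem ii_ρ : IntervalIntegrable ρ volume 0 1 := ii_of_HI (hI_ρ 0)
theorem ii_Ty : IntervalIntegrable (fun T => T * y T) volume 0 1 := ii_of_HI (hI_Ty 0)
theorem ii_r' : IntervalIntegrable r volume 0 1 := ii_of_HI (hI_r 0)

end Vale.Agent.P224.R2.H176.F3
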