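import Vale.Agent.P224.R2.H176.F3.Pol
import Vale.Agent.P224.R2.H178.Flow3d

/-!
Moments of j / (3 - T).
-/

namespace Vale.Agent.P224.R2.H176.F3

open MeasureTheory Set Real Vale.Agent.P224.R2.H178.Flow3

lemma int_deriv {F f : ℝ → ℝ} (hc : ContinuousOn F (Icc 0 1))
    (hd : ∀ x ∈ Ioo (0 : ℝ) 1, HasDerivAt F (f x) x) (hi : IntervalIntegrable f volume 0 1) :
    ∫ x in (0 : ℝ)..1, f x = F 1 - F 0 :=
  intervalIntegral.integral_eq_sub_of_hasDerivAt_of_le zero_le_one hc hd hi

lemma ii_of_contOn {f : ℝ → ℝ} (h : ContinuousOn f (Icc 0 1)) : IntervalIntegrable f volume 0 1 := by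
  refine ContinuousOn.intervalIntegrable ?_
  rwa [uIcc_of_le zero_le_one]

/-- moments of the square root -/
def bq : ℕ → ℚ
  | 0 => 2 / 3
  | n + 1 => bq n * ((2 * n + 2) / (2 * n + 5))

lemma hasDerivAt_s3 {T : ℝ} (hT : T ∈ Ioo (0 : ℝ) 1) :
    HasDerivAt (fun T => (1 - T) * √(1 - T)) (-(3 / 2 * √(1 - T))) T := by
  have hw : 0 < 1 - T := by linarith [hT.2]
  have h1 : HasDerivAt (fun T : ℝ => 1 - T) (-1) T := by
    simpa using (hasDerivAt_id T).const_sub 1
  refine (h1.fun_mul (h1.sqrt hw.ne')).congr_deriv ?_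
  have hs := sqrt_pos.2 hw
  have h2 := mul_self_sqrt hw.le
  field_simp
  nlinarith

lemma int_bq : ∀ n : ℕ, ∫ T in (0 : ℝ)..1, T ^ n * √(1 - T) = bq n
  | 0 => by
    have h := int_deriv (F := fun T => -(2 / 3) * ((1 - T) * √(1 - T)))
      (f := fun T => -(2 / 3) * -(3 / 2 * √(1 - T))) (by fun_prop)
      (fun T hT => (hasDerivAt_s3 hT).const_mul _) (ii_of_contOn (by fun_prop))
    have h2 : (fun T : ℝ => -(2 / 3) * -(3 / 2 * √(1 - T))) = fun T => T ^ 0 * √(1 - T) := by
      funext T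
      ring
    rw [h2] at h
    rw [h, bq]
    norm_num
  | n + 1 => by
    have ih := int_bq n
    have h := int_deriv (F := fun T => T ^ (n + 1) * ((1 - T) * √(1 - T)))
      (f := fun T => ((n + 1 : ℕ) : ℝ) * T ^ n * ((1 - T) * √(1 - T))
        + T ^ (n + 1) * -(3 / 2 * √(1 - T))) (by fun_prop)
      (fun T hT => (hasDerivAt_pow (n + 1) T).fun_mul (hasDerivAt_s3 hT)) (ii_of_contOn (by fun_prop))
    have h2 : (fun T : ℝ => ((n + 1 : ℕ) : ℝ) * T ^ n * ((1 - T) * √(1 - T))
        + T ^ (n + 1) * -(3 / 2 * √(1 - T)))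
        = fun T => (n + 1) * (T ^ n * √(1 - T)) - (n + 5 / 2) * (T ^ (n + 1) * √(1 - T)) := by
      funext T
      push_cast
      ring
    rw [h2, intervalIntegral.integral_sub ((ii_of_contOn (by fun_prop)).const_mul _)
      ((ii_of_contOn (by fun_prop)).const_mul _), intervalIntegral.integral_const_mul,
      intervalIntegral.integral_const_mul, ih] at h
    have h3 : (0 : ℝ) < 2 * n + 5 := by positivity
    have h4 : ((n : ℝ) + 5 / 2) * ∫ T in (0 : ℝ)..1, T ^ (n + 1) * √(1 - T) = (n + 1) * bq n := by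
      have h5 : (1 : ℝ) ^ (n + 1) * ((1 - 1) * √(1 - 1)) - 0 ^ (n + 1) * ((1 - 0) * √(1 - 0)) = 0 := by
        simp
      rw [h5] at h
      linarith
    rw [bq]
    push_cast
    field_simp
    linarith

/-- moments of a polynomial times the square root -/
def momb : List ℚ → ℕ → ℚ
  | [], _ => 0
  | c :: l, n => c * bq n + momb l (n + 1)

lemma int_momb : ∀ (l : List ℚ) (n : ℕ), ∫ T in (0 : ℝ)..1, T ^ n * √(1 - T) * ev l T = momb l n
  | [], n => by simp [momb]
  | c :: l, n => by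
    have ih := int_momb l (n + 1)
    have hc := continuous_ev l
    have h2 : (fun T : ℝ => T ^ n * √(1 - T) * ev (c :: l) T)
        = fun T => c * (T ^ n * √(1 - T)) + T ^ (n + 1) * √(1 - T) * ev l T := by
      funext T
      rw [ev_cons]
      ring
    rw [h2, intervalIntegral.integral_add ((ii_of_contOn (by fun_prop)).const_mul _)
      (ii_of_contOn (by fun_prop)), intervalIntegral.integral_const_mul, int_bq, ih, momb]
    push_cast
    rfl

/-- the moments of j / (3 - T), normalised -/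
noncomputable def Gm (n : ℕ) : ℝ := 2 * √2 * ∫ T in (0 : ℝ)..1, T ^ n * (j T / (3 - T))

lemma jg_cont : ContinuousOn (fun T => j T / (3 - T)) (Icc 0 1) :=
  j_cont.div (by fun_prop) fun t ht => by linarith [ht.2]

lemma j_div {T : ℝ} (hT : T ≤ 1) : j T / (3 - T) = √(1 - T) / ((3 - T) * √(3 - T)) := by
  unfold j
  rw [sqrt_div (by linarith)]
  have h3 : 0 < 3 - T := by linarith
  have := (sqrt_pos.2 h3).ne'
  field_simp

/-- the recursion of the moments -/
lemma Gm_rec (n : ℕ) :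
    3 * (n + 1) * Gm n = 4 * (n + 2) * Gm (n + 1) - (n + 2) * Gm (n + 2) := by
  have h := int_deriv (F := fun T => T ^ (n + 1) * ((1 - T) * j T))
    (f := fun T => 3 * (n + 1) * (T ^ n * (j T / (3 - T))) - 4 * (n + 2) * (T ^ (n + 1) * (j T / (3 - T)))
      + (n + 2) * (T ^ (n + 2) * (j T / (3 - T)))) ?_ ?_ ?_
  · have i0 : ∀ k : ℕ, IntervalIntegrable (fun T => T ^ k * (j T / (3 - T))) volume 0 1 := fun k =>
      ii_of_contOn ((continuousOn_pow k).mul jg_cont)
    rw [intervalIntegral.integral_add (((i0 n).const_mul _).sub ((i0 (n + 1)).const_mul _))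
      ((i0 (n + 2)).const_mul _), intervalIntegral.integral_sub ((i0 n).const_mul _)
      ((i0 (n + 1)).const_mul _), intervalIntegral.integral_const_mul,
      intervalIntegral.integral_const_mul, intervalIntegral.integral_const_mul] at h
    have h0 : (fun T : ℝ => T ^ (n + 1) * ((1 - T) * j T)) 1
        - (fun T : ℝ => T ^ (n + 1) * ((1 - T) * j T)) 0 = 0 := by simp
    rw [h0] at h
    unfold Gm
    linear_combination 2 * √2 * h
  · exact (continuousOn_pow _).mul (ContinuousOn.mul (by fun_prop) j_cont)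
  · intro T hT
    have h1 : HasDerivAt (fun T : ℝ => 1 - T) (-1) T := by
      simpa using (hasDerivAt_id T).const_sub 1
    refine ((hasDerivAt_pow (n + 1) T).fun_mul (h1.fun_mul (hasDerivAt_j hT))).congr_deriv ?_
    have h3 : (3 : ℝ) - T ≠ 0 := by linarith [hT.2]
    have h4 : (1 : ℝ) - T ≠ 0 := by linarith [hT.2]
    push_cast
    field_simp
    ring
  · refine ii_of_contOn ?_
    have i0 : ∀ k : ℕ, ContinuousOn (fun T => T ^ k * (j T / (3 - T))) (Icc 0 1) := fun k =>
      (continuousOn_pow k).mul jg_cont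
    exact (((i0 n).const_smul (3 * ((n : ℝ) + 1))).sub ((i0 (n + 1)).const_smul
      (4 * ((n : ℝ) + 2)))).add ((i0 (n + 2)).const_smul ((n : ℝ) + 2))

/-- the approximation of the moments at the top -/
lemma Gm_top {p : List ℚ} {δ : ℚ}
    (hδ : ∀ T ∈ Icc (0 : ℝ) 1, |(3 - T) * ev (pder p) T - 3 / 2 * ev p T| ≤ δ) (n : ℕ) :
    |ev p 1 * Gm n - momb p n| ≤ δ := by
  have hδ0 : (0 : ℝ) ≤ δ := (abs_nonneg _).trans (hδ 0 ⟨le_rfl, zero_le_one⟩)
  set h : ℝ → ℝ := fun T => (3 - T) * √(3 - T) * ev p T with hh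
  have hs3 : ∀ T ∈ Icc (0 : ℝ) 1, HasDerivAt h (√(3 - T) * ((3 - T) * ev (pder p) T
      - 3 / 2 * ev p T)) T := by
    intro T hT
    have hw : 0 < 3 - T := by linarith [hT.2]
    have h1 : HasDerivAt (fun T : ℝ => 3 - T) (-1) T := by
      simpa using (hasDerivAt_id T).const_sub 3
    refine ((h1.fun_mul (h1.sqrt hw.ne')).fun_mul (hasDerivAt_ev p)).congr_deriv ?_
    have hs := sqrt_pos.2 hw
    have h2 := mul_self_sqrt hw.le
    have h3 : (3 - T) * (-1 / (2 * √(3 - T))) = -(√(3 - T) / 2) := by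
      rw [mul_div_assoc', div_eq_iff (by positivity)]
      nlinarith
    rw [h3]
    ring
  have hb : ∀ T ∈ Icc (0 : ℝ) 1, |h T - h 1| ≤ 2 * δ := by
    intro T hT
    have h5 := Convex.norm_image_sub_le_of_norm_hasDerivWithin_le (f := h)
      (f' := fun T => √(3 - T) * ((3 - T) * ev (pder p) T - 3 / 2 * ev p T)) (C := 2 * δ)
      (fun x hx => (hs3 x hx).hasDerivWithinAt) (fun x hx => ?_) (convex_Icc (0 : ℝ) 1)
      (⟨zero_le_one, le_rfl⟩ : (1 : ℝ) ∈ Icc (0 : ℝ) 1) hT
    · rw [norm_eq_abs, norm_eq_abs] at h5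
      have h6 : |T - 1| ≤ 1 := by
        rw [abs_le]
        constructor <;> linarith [hT.1, hT.2]
      have h7 : 2 * (δ : ℝ) * |T - 1| ≤ 2 * δ * 1 := by
        apply mul_le_mul_of_nonneg_left h6 (by positivity)
      linarith
    · rw [norm_eq_abs, abs_mul, abs_of_nonneg (sqrt_nonneg _)]
      have h8 : √(3 - x) ≤ 2 := by
        rw [sqrt_le_left (by norm_num)]
        linarith [hx.1]
      exact mul_le_mul h8 (hδ x hx) (abs_nonneg _) (by norm_num)
  have hh1 : h 1 = 2 * √2 * ev p 1 := by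
    simp only [hh]
    norm_num
  have hs2 : (1 : ℝ) ≤ √2 := by
    rw [one_le_sqrt]
    norm_num
  -- the difference of the integrands
  have hd : ∀ T ∈ Icc (0 : ℝ) 1, |h 1 * (j T / (3 - T)) - √(1 - T) * ev p T| ≤ δ := by
    intro T hT
    have h3 : 0 < 3 - T := by linarith [hT.2]
    have hs := sqrt_pos.2 h3
    rw [j_div hT.2]
    have e : h 1 * (√(1 - T) / ((3 - T) * √(3 - T))) - √(1 - T) * ev p T
        = √(1 - T) / ((3 - T) * √(3 - T)) * (h 1 - h T) := by
      simp only [hh]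
      field_simp
    rw [e, abs_mul, abs_sub_comm]
    have h5 : |√(1 - T) / ((3 - T) * √(3 - T))| ≤ 1 / 2 := by
      rw [abs_of_nonneg (by positivity), div_le_iff₀ (by positivity)]
      have h6 : √(1 - T) ≤ 1 := by
        rw [sqrt_le_one]
        linarith [hT.1]
      have h7 : 1 ≤ √(3 - T) := by
        rw [one_le_sqrt]
        linarith [hT.2]
      nlinarith [hT.2]
    calc |√(1 - T) / ((3 - T) * √(3 - T))| * |h T - h 1| ≤ 1 / 2 * (2 * δ) :=
          mul_le_mul h5 (hb T hT) (abs_nonneg _) (by norm_num)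
      _ = δ := by ring
  have hc : Continuous (ev p) := continuous_ev p
  have i1 : IntervalIntegrable (fun T => h 1 * (T ^ n * (j T / (3 - T)))) volume 0 1 :=
    (ii_of_contOn ((continuousOn_pow n).mul jg_cont)).const_mul _
  have i2 : IntervalIntegrable (fun T => T ^ n * √(1 - T) * ev p T) volume 0 1 :=
    ii_of_contOn (by fun_prop)
  have e1 : ev p 1 * Gm n - momb p n
      = ∫ T in (0 : ℝ)..1, (h 1 * (T ^ n * (j T / (3 - T))) - T ^ n * √(1 - T) * ev p T) := by
    rw [intervalIntegral.integral_sub i1 i2, intervalIntegral.integral_const_mul, int_momb, hh1]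
    unfold Gm
    ring
  rw [e1]
  have h9 := intervalIntegral.norm_integral_le_of_norm_le_const (a := (0 : ℝ)) (b := 1)
    (f := fun T => h 1 * (T ^ n * (j T / (3 - T))) - T ^ n * √(1 - T) * ev p T) (C := δ)
    (fun T hT => ?_)
  · simpa using h9
  · rw [uIoc_of_le zero_le_one] at hT
    have hT' : T ∈ Icc (0 : ℝ) 1 := ⟨hT.1.le, hT.2⟩
    rw [norm_eq_abs]
    have e2 : h 1 * (T ^ n * (j T / (3 - T))) - T ^ n * √(1 - T) * ev p T
        = T ^ n * (h 1 * (j T / (3 - T)) - √(1 - T) * ev p T) := by ring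
    rw [e2, abs_mul, abs_of_nonneg (pow_nonneg hT'.1 n)]
    calc T ^ n * |h 1 * (j T / (3 - T)) - √(1 - T) * ev p T| ≤ 1 * δ :=
          mul_le_mul (pow_le_one₀ hT'.1 hT'.2) (hd T hT') (abs_nonneg _) zero_le_one
      _ = δ := one_mul _

end Vale.Agent.P224.R2.H176.F3
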