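import Mathlib

/-!
Polynomials with rational coefficients as lists, and rational intervals.
-/

namespace Vale.Agent.P224.R2.H176.F3

open MeasureTheory Set Real

/-- evaluation of a list of coefficients -/
noncomputable def ev : List ℚ → ℝ → ℝ
  | [], _ => 0
  | c :: l, T => c + T * ev l T

def padd : List ℚ → List ℚ → List ℚ
  | [], m => m
  | l, [] => l
  | a :: l, b :: m => (a + b) :: padd l m

def psmul (q : ℚ) : List ℚ → List ℚ
  | [] => []
  | a :: l => (q * a) :: psmul q l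

def pmul : List ℚ → List ℚ → List ℚ
  | [], _ => []
  | a :: l, m => padd (psmul a m) (0 :: pmul l m)

def pder : List ℚ → List ℚ
  | [] => []
  | _ :: l => padd l (0 :: pder l)

def pabs : List ℚ → ℚ
  | [] => 0
  | a :: l => |a| + pabs l

/-- the monomial of degree k -/
def pmon : ℕ → List ℚ
  | 0 => [1]
  | k + 1 => 0 :: pmon k

variable {T : ℝ}

@[simp] lemma ev_nil : ev [] T = 0 := rfl

lemma ev_cons (c : ℚ) (l : List ℚ) : ev (c :: l) T = c + T * ev l T := rfl

lemma ev_padd : ∀ l m : List ℚ, ev (padd l m) T = ev l T + ev m T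
  | [], m => by simp [padd]
  | a :: l, [] => by simp [padd]
  | a :: l, b :: m => by
    rw [padd, ev_cons, ev_cons, ev_cons, ev_padd l m]
    push_cast
    ring

lemma ev_psmul (q : ℚ) : ∀ l : List ℚ, ev (psmul q l) T = q * ev l T
  | [] => by simp [psmul]
  | a :: l => by
    rw [psmul, ev_cons, ev_cons, ev_psmul q l]
    push_cast
    ring

lemma ev_pmul : ∀ l m : List ℚ, ev (pmul l m) T = ev l T * ev m T
  | [], m => by simp [pmul]
  | a :: l, m => by
    rw [pmul, ev_padd, ev_psmul, ev_cons, ev_cons, ev_pmul l m]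
    push_cast
    ring

lemma ev_pmon : ∀ k : ℕ, ev (pmon k) T = T ^ k
  | 0 => by simp [pmon, ev_cons]
  | k + 1 => by
    rw [pmon, ev_cons, ev_pmon k]
    push_cast
    ring

lemma hasDerivAt_ev : ∀ l : List ℚ, HasDerivAt (ev l) (ev (pder l) T) T
  | [] => by
    have : ev [] = fun _ => 0 := rfl
    rw [this]
    exact hasDerivAt_const T 0
  | a :: l => by
    have h := ((hasDerivAt_id T).fun_mul (hasDerivAt_ev l)).const_add (a : ℝ)
    refine (h.congr_deriv ?_)
    rw [pder, ev_padd, ev_cons]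
    simp

lemma continuous_ev (l : List ℚ) : Continuous (ev l) :=
  continuous_iff_continuousAt.2 fun _ => (hasDerivAt_ev l).continuousAt

lemma abs_ev_le (h : T ∈ Icc (0 : ℝ) 1) : ∀ l : List ℚ, |ev l T| ≤ pabs l
  | [] => by simp [pabs]
  | a :: l => by
    rw [ev_cons, pabs]
    push_cast
    refine (abs_add_le _ _).trans (add_le_add le_rfl ?_)
    rw [abs_mul, abs_of_nonneg h.1]
    have := abs_ev_le h l
    have h2 := mul_le_mul h.2 this (abs_nonneg _) zero_le_one
    linarith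

/-- doubling of Chebyshev polynomials -/
def dbl (c : List ℚ) : List ℚ := padd (psmul 2 (pmul c c)) [-1]

lemma dbl_le {c : List ℚ} (h : |ev c T| ≤ 1) : |ev (dbl c) T| ≤ 1 := by
  unfold dbl
  rw [ev_padd, ev_psmul, ev_pmul, ev_cons]
  rw [abs_le] at h ⊢
  push_cast
  simp only [ev_nil, mul_zero, add_zero]
  constructor <;> nlinarith [h.1, h.2]

/-- the shifted Chebyshev polynomial of degree 32 -/
def c32 : List ℚ := dbl (dbl (dbl (dbl (dbl [-1, 2]))))

lemma c32_le (h : T ∈ Icc (0 : ℝ) 1) : |ev c32 T| ≤ 1 := by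
  refine dbl_le (dbl_le (dbl_le (dbl_le (dbl_le ?_))))
  rw [ev_cons, ev_cons, abs_le]
  push_cast
  simp only [ev_nil, mul_zero, add_zero]
  constructor <;> linarith [h.1, h.2]

/-- a polynomial near a combination of Chebyshev polynomials is small -/
lemma ev_small (h : T ∈ Icc (0 : ℝ) 1) (l : List ℚ) (a b : ℚ) {δ : ℚ}
    (hδ : |a| + |b| + pabs (padd l (psmul (-1) (padd (psmul a c32) (0 :: psmul b c32)))) ≤ δ) :
    |ev l T| ≤ δ := by
  have h1 := abs_ev_le h (padd l (psmul (-1) (padd (psmul a c32) (0 :: psmul b c32))))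
  rw [ev_padd, ev_psmul, ev_padd, ev_psmul, ev_cons, ev_psmul] at h1
  push_cast at h1
  have h2 := c32_le h
  have h3 : |(a : ℝ) * ev c32 T| ≤ |(a : ℝ)| := by
    rw [abs_mul]
    exact mul_le_of_le_one_right (abs_nonneg _) h2
  have h4 : |T * ((b : ℝ) * ev c32 T)| ≤ |(b : ℝ)| := by
    rw [abs_mul, abs_mul, abs_of_nonneg h.1]
    have h5 : |(b : ℝ)| * |ev c32 T| ≤ |(b : ℝ)| := mul_le_of_le_one_right (abs_nonneg _) h2
    have h6 : 0 ≤ |(b : ℝ)| * |ev c32 T| := by positivity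
    calc T * (|(b : ℝ)| * |ev c32 T|) ≤ 1 * (|(b : ℝ)| * |ev c32 T|) :=
          mul_le_mul_of_nonneg_right h.2 h6
      _ ≤ _ := by rw [one_mul]; exact h5
  have hδ' : ((|a| + |b| + pabs (padd l (psmul (-1) (padd (psmul a c32) (0 :: psmul b c32)))) : ℚ)
      : ℝ) ≤ δ := by exact_mod_cast hδ
  push_cast at hδ'
  rw [abs_le] at h1 h3 h4 ⊢
  constructor <;> linarith [h1.1, h1.2, h3.1, h3.2, h4.1, h4.2]

/-! ### intervals -/

/-- rational intervals -/
abbrev Iv := ℚ × ℚ

/-- membership -/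
def Mem (I : Iv) (x : ℝ) : Prop := (I.1 : ℝ) ≤ x ∧ x ≤ (I.2 : ℝ)

def iadd (I J : Iv) : Iv := (I.1 + J.1, I.2 + J.2)

def ismul (q : ℚ) (I : Iv) : Iv := if 0 ≤ q then (q * I.1, q * I.2) else (q * I.2, q * I.1)

/-- widening -/
def iwid (I : Iv) (δ : ℚ) : Iv := (I.1 - δ, I.2 + δ)

lemma Mem.add {I J : Iv} {x y : ℝ} (h : Mem I x) (h' : Mem J y) : Mem (iadd I J) (x + y) := by
  unfold Mem iadd at *
  push_cast
  exact ⟨add_le_add h.1 h'.1, add_le_add h.2 h'.2⟩

lemma Mem.smul {I : Iv} {x : ℝ} (h : Mem I x) (q : ℚ) : Mem (ismul q I) (q * x) := by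
  unfold ismul
  split_ifs with hq
  · have hq' : (0 : ℝ) ≤ q := by exact_mod_cast hq
    unfold Mem at *
    push_cast
    exact ⟨mul_le_mul_of_nonneg_left h.1 hq', mul_le_mul_of_nonneg_left h.2 hq'⟩
  · have hq' : (q : ℝ) ≤ 0 := by exact_mod_cast (not_le.1 hq).le
    unfold Mem at *
    push_cast
    exact ⟨mul_le_mul_of_nonpos_left h.2 hq', mul_le_mul_of_nonpos_left h.1 hq'⟩

lemma Mem.wid {I : Iv} {x y : ℝ} {δ : ℚ} (h : Mem I x) (hy : |y - x| ≤ δ) : Mem (iwid I δ) y := by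
  unfold Mem iwid at *
  rw [abs_le] at hy
  push_cast
  constructor <;> linarith [h.1, h.2, hy.1, hy.2]

lemma mem_const (q : ℚ) : Mem (q, q) q := ⟨le_rfl, le_rfl⟩

/-- outward rounding to multiples of 1 / 10 ^ 30 -/
def rdn (x : ℚ) : ℚ := (⌊x * 10 ^ 30⌋ : ℚ) / 10 ^ 30

def rup (x : ℚ) : ℚ := (⌈x * 10 ^ 30⌉ : ℚ) / 10 ^ 30

lemma rdn_le (x : ℚ) : rdn x ≤ x := by
  unfold rdn
  rw [div_le_iff₀ (by positivity)]
  exact Int.floor_le _

lemma le_rup (x : ℚ) : x ≤ rup x := by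
  unfold rup
  rw [le_div_iff₀ (by positivity)]
  exact Int.le_ceil _

/-- outward rounding -/
def ird (I : Iv) : Iv := (rdn I.1, rup I.2)

lemma Mem.rd {I : Iv} {x : ℝ} (h : Mem I x) : Mem (ird I) x := by
  unfold Mem ird at *
  have h1 : ((rdn I.1 : ℚ) : ℝ) ≤ I.1 := by exact_mod_cast rdn_le _
  have h2 : (I.2 : ℝ) ≤ ((rup I.2 : ℚ) : ℝ) := by exact_mod_cast le_rup _
  exact ⟨h1.trans h.1, h.2.trans h2⟩

/-- a sequence of moments in a list of intervals -/
def AM (f : ℕ → ℝ) : ℕ → List Iv → Prop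
  | _, [] => True
  | n, I :: L => Mem I (f n) ∧ AM f (n + 1) L

lemma AM.get {f : ℕ → ℝ} : ∀ {L : List Iv} {n k : ℕ}, AM f n L → k < L.length →
    Mem (L.getD k (0, 0)) (f (n + k))
  | [], _, _, _, hk => by simp at hk
  | I :: L, n, 0, h, _ => h.1
  | I :: L, n, k + 1, h, hk => by
    have := AM.get h.2 (Nat.lt_of_succ_lt_succ hk)
    rw [show n + (k + 1) = n + 1 + k by omega]
    exact this

/-- linear combination of a sequence -/
noncomputable def lin : List ℚ → ℕ → (ℕ → ℝ) → ℝ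
  | [], _, _ => 0
  | c :: l, n, f => c * f n + lin l (n + 1) f

/-- linear combination of intervals -/
def idot : List ℚ → List Iv → Iv
  | [], _ => (0, 0)
  | _, [] => (0, 0)
  | c :: l, I :: L => iadd (ismul c I) (idot l L)

lemma AM.dot {f : ℕ → ℝ} : ∀ {l : List ℚ} {L : List Iv} {n : ℕ}, AM f n L → l.length ≤ L.length →
    Mem (idot l L) (lin l n f)
  | [], L, n, _, _ => by
    simp only [idot, lin]
    exact ⟨by simp, by simp⟩
  | c :: l, [], n, _, hl => by simp at hl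
  | c :: l, I :: L, n, h, hl => by
    simp only [idot, lin]
    exact (h.1.smul c).add (AM.dot h.2 (Nat.le_of_succ_le_succ hl))

end Vale.Agent.P224.R2.H176.F3
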