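import Vale.Agent.P224.R2.H176.F3.RQ

/-!
A polynomial bracket for the elementary integral.
-/

namespace Vale.Agent.P224.R2.H176.F3

open MeasureTheory Set Real Filter Vale.Agent.P224.R2.H178.Flow3
open scoped Topology

/-- composition -/
def pcomp : List ℚ → List ℚ → List ℚ
  | [], _ => []
  | c :: l, m => padd [c] (pmul m (pcomp l m))

variable {T : ℝ}

lemma ev_pcomp : ∀ l m : List ℚ, ev (pcomp l m) T = ev l (ev m T)
  | [], m => by simp [pcomp]
  | c :: l, m => by
    rw [pcomp, ev_padd, ev_pmul, ev_pcomp l m, ev_cons, ev_cons]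
    simp

lemma pabs_nonneg : ∀ l : List ℚ, 0 ≤ pabs l
  | [] => le_rfl
  | a :: l => add_nonneg (abs_nonneg a) (pabs_nonneg l)

lemma ev_eq_zero : ∀ {l : List ℚ}, pabs l = 0 → ev l T = 0
  | [], _ => rfl
  | a :: l, h => by
    have h1 := abs_nonneg a
    have h2 := pabs_nonneg l
    rw [pabs] at h
    have h3 : a = 0 := abs_eq_zero.1 (by linarith)
    have h4 : pabs l = 0 := by linarith
    rw [ev_cons, ev_eq_zero h4, h3]
    simp

/-- the partial sum of (1 - z) ^ (-3 / 2) -/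
def gL : List ℚ := [
  1, 3/2, 15/8, 35/16, 315/128, 693/256, 3003/1024, 6435/2048, 109395/32768]

/-- the bracket polynomial -/
def QL : List ℚ := [
  976537377187891/1754099003424768, -28103286483/8589934592, 501451083315/34359738368,
  -5259806399/100663296, 1263962009865/8589934592, -708055411035/2147483648,
  15342861004877/25769803776, -3287896205175/3758096384, 18083781699543/17179869184,
  -4465176282325/4294967296, 72336270007881/85899345920, -1644011896995/2952790016,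
  2557357624549/8589934592, -3540962069883/27917287424, 2529261221085/60129542144,
  -28102921833/2684354560, 63231601473/34359738368, -29756054187/146028888064,
  1102076081/103079215104]

def a17 : ℚ := 3306228243/17179869184

def C9 : ℚ := 230945/65536

def PL : List ℚ := psmul (-1) (pder QL)

lemma gL_id (z : ℝ) : (1 - z) * ev (pder gL) z - 3 / 2 * ev gL z = -(9 * C9 * z ^ 8) := by
  have h : ev (padd (padd (pmul [1, -1] (pder gL)) (psmul (-3 / 2) gL))
      (psmul (9 * C9) (pmon 8))) z = 0 := ev_eq_zero (by decide +kernel)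
  rw [ev_padd, ev_padd, ev_pmul, ev_psmul, ev_psmul, ev_pmon] at h
  simp only [ev_cons, ev_nil] at h
  push_cast at h
  linarith

lemma hd_F {z : ℝ} (hz : z < 1) : HasDerivAt (fun z => (1 - z) * √(1 - z) * ev gL z)
    (-(9 * C9 * z ^ 8 * √(1 - z))) z := by
  have hw : 0 < 1 - z := by linarith
  have h1 : HasDerivAt (fun z : ℝ => 1 - z) (-1) z := by
    simpa using (hasDerivAt_id z).const_sub 1
  refine (((h1.fun_mul (h1.sqrt hw.ne')).fun_mul (hasDerivAt_ev gL))).congr_deriv ?_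
  have hs := sqrt_pos.2 hw
  have h2 := mul_self_sqrt hw.le
  have h3 := gL_id z
  generalize √(1 - z) = s at *
  have hs' := hs.ne'
  have h4 : (-1 * s + (1 - z) * (-1 / (2 * s))) = -(3 / 2 * s) := by
    field_simp
    nlinarith
  rw [h4]
  have h5 : -(3 / 2 * s) * ev gL z + (1 - z) * s * ev (pder gL) z
      = s * ((1 - z) * ev (pder gL) z - 3 / 2 * ev gL z) := by ring
  rw [h5, h3]
  ring

lemma F_zero : (1 - (0 : ℝ)) * √(1 - 0) * ev gL 0 = 1 := by
  rw [gL, ev_cons]
  simp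

lemma C9_nonneg : (0 : ℝ) ≤ C9 := by
  have : (0 : ℚ) ≤ C9 := by decide +kernel
  exact_mod_cast this

lemma F_le {z : ℝ} (hz : z ∈ Icc (0 : ℝ) (1 / 4)) : (1 - z) * √(1 - z) * ev gL z ≤ 1 := by
  rcases hz.1.eq_or_lt with h0 | h0
  · rw [← h0, F_zero]
  obtain ⟨x, hx, hxe⟩ := exists_hasDerivAt_eq_slope _ _ h0
    (fun y hy => (hd_F (by linarith [hy.2, hz.2] : y < 1)).continuousAt.continuousWithinAt)
    (fun y hy => hd_F (by linarith [hy.2, hz.2] : y < 1))
  rw [F_zero, sub_zero, eq_div_iff h0.ne'] at hxe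
  have h1 : 0 ≤ 9 * (C9 : ℝ) * x ^ 8 * √(1 - x) * z := by
    have := C9_nonneg
    have := hx.1
    positivity
  linarith

lemma le_F {z : ℝ} (hz : z ∈ Icc (0 : ℝ) (1 / 4)) :
    1 - C9 * z ^ 9 ≤ (1 - z) * √(1 - z) * ev gL z := by
  rcases hz.1.eq_or_lt with h0 | h0
  · rw [← h0, F_zero]
    simp
  have hd : ∀ y < (1 : ℝ), HasDerivAt (fun z => (1 - z) * √(1 - z) * ev gL z + C9 * z ^ 9)
      (-(9 * C9 * y ^ 8 * √(1 - y)) + C9 * (9 * y ^ 8)) y := by
    intro y hy
    refine ((hd_F hy).fun_add ((hasDerivAt_pow 9 y).const_mul (C9 : ℝ))).congr_deriv ?_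
    norm_num
  obtain ⟨x, hx, hxe⟩ := exists_hasDerivAt_eq_slope _ _ h0
    (fun y hy => (hd y (by linarith [hy.2, hz.2] : y < 1)).continuousAt.continuousWithinAt)
    (fun y hy => hd y (by linarith [hy.2, hz.2] : y < 1))
  rw [F_zero, sub_zero, eq_div_iff h0.ne'] at hxe
  have h2 : √(1 - x) ≤ 1 := by
    rw [sqrt_le_one]
    linarith [hx.1]
  have h1 : 0 ≤ 9 * (C9 : ℝ) * x ^ 8 * (1 - √(1 - x)) * z := by
    have := C9_nonneg
    have := hx.1
    have : 0 ≤ 1 - √(1 - x) := by linarith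
    positivity
  have h3 : (C9 : ℝ) * 0 ^ 9 = 0 := by simp
  rw [h3] at hxe
  linarith

/-- the constant of the remainder -/
def Cr : ℚ := a17 + 154 / 100 * C9 / (8 * 4 ^ 9)

lemma PL_id (u : ℝ) : u * ev PL u = 1 / 8 * ev gL ((1 - u) ^ 2 / 4) - a17 * (1 - u) ^ 18 := by
  have h : ev (padd (0 :: PL) (padd (psmul (-1 / 8) (pcomp gL [1 / 4, -1 / 2, 1 / 4]))
      (psmul a17 (pcomp (pmon 18) [1, -1])))) u = 0 := ev_eq_zero (by decide +kernel)
  rw [ev_padd, ev_padd, ev_cons, ev_psmul, ev_psmul, ev_pcomp, ev_pcomp, ev_pmon] at h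
  simp only [ev_cons, ev_nil] at h
  push_cast at h
  have e1 : (1 : ℝ) / 4 + u * (-1 / 2 + u * (1 / 4 + u * 0)) = (1 - u) ^ 2 / 4 := by ring
  have e2 : (1 : ℝ) + u * (-1 + u * 0) = 1 - u := by ring
  rw [e1, e2] at h
  linarith

/-- the bracket of the integrand -/
lemma q3_bracket {u : ℝ} (hu : u ∈ Ioc (0 : ℝ) 1) : 0 ≤ q3 u - ev PL u ∧
    q3 u - ev PL u ≤ Cr * (1 - u) ^ 18 / u := by
  have h0 := hu.1
  set z : ℝ := (1 - u) ^ 2 / 4 with hz
  have hz1 : z ∈ Icc (0 : ℝ) (1 / 4) := by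
    rw [hz]
    constructor
    · positivity
    · nlinarith [hu.1, hu.2]
  have hy : (3 - u) * (1 + u) = 2 ^ 2 * (1 - z) := by rw [hz]; ring
  have hs : √((3 - u) * (1 + u)) = 2 * √(1 - z) := by
    rw [hy, sqrt_mul (by norm_num), sqrt_sq (by norm_num)]
  have hw0 : (0 : ℝ) < 1 - z := by linarith [hz1.2]
  have hs1 : (866 / 1000 : ℝ) ≤ √(1 - z) := by
    apply le_sqrt_of_sq_le
    linarith [hz1.2]
  set w : ℝ := (1 - z) * √(1 - z) with hw
  have hw1 : (100 / 154 : ℝ) ≤ w := by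
    have : (3 / 4 : ℝ) * (866 / 1000) ≤ w :=
      mul_le_mul (by linarith [hz1.2]) hs1 (by norm_num) hw0.le
    linarith
  have hwp : 0 < w := by linarith
  have hq : q3 u = 1 / (8 * w) / u := by
    unfold q3
    rw [hs, hy, hw]
    have := (sqrt_pos.2 hw0).ne'
    have := hw0.ne'
    field_simp
    norm_num
  have hP := PL_id u
  have hF := F_le hz1
  have hF' := le_F hz1
  rw [← hz] at hP
  have hw2 : w * ev gL z ≤ 1 := hF
  have hw3 : 1 - C9 * z ^ 9 ≤ w * ev gL z := hF'
  have hg1 : ev gL z ≤ 1 / w := by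
    rw [le_div_iff₀ hwp]
    linarith
  have hx : 0 ≤ (1 - u) ^ 18 := by
    have : 0 ≤ 1 - u := by linarith [hu.2]
    positivity
  have ha : (0 : ℝ) ≤ a17 := by
    have : (0 : ℚ) ≤ a17 := by decide +kernel
    exact_mod_cast this
  have hdiff : q3 u - ev PL u = (1 / (8 * w) - u * ev PL u) / u := by
    rw [hq]
    field_simp
  have h8 : 1 / (8 * w) = 1 / 8 * (1 / w) := by
    field_simp
  have hz9 : z ^ 9 = (1 - u) ^ 18 / 4 ^ 9 := by rw [hz]; ring
  rw [hdiff, hP, h8]
  constructor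
  · refine div_nonneg ?_ h0.le
    have : 0 ≤ (a17 : ℝ) * (1 - u) ^ 18 := mul_nonneg ha hx
    linarith
  · refine div_le_div_of_nonneg_right ?_ h0.le
    have h9 : 1 / w - ev gL z ≤ 154 / 100 * (C9 * z ^ 9) := by
      have h10 : 1 / w - ev gL z = (1 - w * ev gL z) * (1 / w) := by field_simp
      have h11 : 1 / w ≤ 154 / 100 := by
        rw [div_le_iff₀ hwp]
        linarith
      rw [h10]
      have h12 : 0 ≤ 1 - w * ev gL z := by linarith
      calc (1 - w * ev gL z) * (1 / w) ≤ (1 - w * ev gL z) * (154 / 100) :=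
            mul_le_mul_of_nonneg_left h11 h12
        _ ≤ (C9 * z ^ 9) * (154 / 100) := mul_le_mul_of_nonneg_right (by linarith) (by norm_num)
        _ = _ := by ring
    unfold Cr
    push_cast
    rw [hz9] at h9
    linarith

lemma Q3_sub (hT : T ∈ Ioc (0 : ℝ) 1) : Q3 T - ev QL T = ∫ u in T..1, (q3 u - ev PL u) := by
  have i1 : IntervalIntegrable q3 volume T 1 := by
    refine ContinuousOn.intervalIntegrable ?_
    rw [uIcc_of_le hT.2]
    exact q3_contOn.mono fun x hx => ⟨hT.1.trans_le hx.1, hx.2⟩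
  have i2 : IntervalIntegrable (ev PL) volume T 1 := (continuous_ev PL).intervalIntegrable _ _
  have h : ∫ u in T..1, ev PL u = ev (psmul (-1) QL) 1 - ev (psmul (-1) QL) T := by
    refine intervalIntegral.integral_eq_sub_of_hasDerivAt (fun x _ => ?_) i2
    have h1 := hasDerivAt_ev (T := x) (psmul (-1) QL)
    have e : ev (pder (psmul (-1) QL)) x = ev PL x := by
      have h2 : pder (psmul (-1) QL) = PL := by decide +kernel
      rw [h2]
    rwa [e] at h1
  have h1 : ev (psmul (-1) QL) 1 = 0 := by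
    have h2 : (psmul (-1) QL).sum = 0 := by decide +kernel
    rw [ev_one, h2]
    simp
  rw [intervalIntegral.integral_sub i1 i2, h, h1, ev_psmul]
  unfold Q3
  push_cast
  ring

lemma Cr_nonneg : (0 : ℝ) ≤ Cr := by
  have : (0 : ℚ) ≤ Cr := by decide +kernel
  exact_mod_cast this

lemma Q3_bracket (hT : T ∈ Ioc (0 : ℝ) 1) : 0 ≤ Q3 T - ev QL T ∧
    Q3 T - ev QL T ≤ Cr / 19 * ((1 - T) ^ 19 / T) := by
  rw [Q3_sub hT]
  have h0 := hT.1
  have i1 : IntervalIntegrable (fun u => q3 u - ev PL u) volume T 1 := by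
    refine ContinuousOn.intervalIntegrable ?_
    rw [uIcc_of_le hT.2]
    exact (q3_contOn.mono fun x hx => ⟨hT.1.trans_le hx.1, hx.2⟩).sub
      (continuous_ev PL).continuousOn
  constructor
  · exact intervalIntegral.integral_nonneg hT.2 fun u hu =>
      (q3_bracket ⟨hT.1.trans_le hu.1, hu.2⟩).1
  · have i2 : IntervalIntegrable (fun u : ℝ => Cr / T * (1 - u) ^ 18) volume T 1 := by
      refine Continuous.intervalIntegrable ?_ _ _
      fun_prop
    have h1 : ∫ u in T..1, (q3 u - ev PL u) ≤ ∫ u in T..1, Cr / T * (1 - u) ^ 18 := by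
      refine intervalIntegral.integral_mono_on hT.2 i1 i2 fun u hu => ?_
      have hu0 : 0 < u := hT.1.trans_le hu.1
      refine (q3_bracket ⟨hu0, hu.2⟩).2.trans ?_
      have h3 : 0 ≤ (1 - u) ^ 18 := by
        have : 0 ≤ 1 - u := by linarith [hu.2]
        positivity
      rw [div_mul_eq_mul_div]
      exact div_le_div_of_nonneg_left (mul_nonneg Cr_nonneg h3) h0 hu.1
    refine h1.trans_eq ?_
    have h2 : ∫ u in T..1, (Cr : ℝ) / T * (1 - u) ^ 18
        = -(Cr / T * ((1 - 1) ^ 19 / 19)) - -(Cr / T * ((1 - T) ^ 19 / 19)) := by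
      refine intervalIntegral.integral_eq_sub_of_hasDerivAt
        (f := fun u => -(Cr / T * ((1 - u) ^ 19 / 19))) (fun x _ => ?_) i2
      have h3 : HasDerivAt (fun u : ℝ => 1 - u) (-1) x := by
        simpa using (hasDerivAt_id x).const_sub 1
      refine ((((h3.fun_pow 19).div_const 19).const_mul (Cr / T : ℝ)).fun_neg).congr_deriv ?_
      norm_num
      ring
    rw [h2]
    field_simp
    ring

end Vale.Agent.P224.R2.H176.F3
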