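import Vale.Agent.P224.R2.H176.F3.QB

/-!
Moments of the function r of the flow.
-/

namespace Vale.Agent.P224.R2.H176.F3

open MeasureTheory Set Real Filter Vale.Agent.P224.R2.H178.Flow3 Vale.Agent.P224.R2.H925
open scoped Topology

variable {T : ℝ}

/-! ### moments of the square root -/

lemma c_le_one (hT : T ∈ Icc (0 : ℝ) 1) : c T ≤ 1 := by
  unfold c
  rw [sqrt_le_one]
  nlinarith [hT.1]

noncomputable def bet (n : ℕ) : ℝ := ∫ T in (0 : ℝ)..1, T ^ n * c T

lemma ii_bet (n : ℕ) : IntervalIntegrable (fun T => T ^ n * c T) volume 0 1 :=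
  ((continuous_pow n).mul c_cont).intervalIntegrable _ _

lemma bet_zero : bet 0 = π / 4 := by
  have h := integral_sqrt_one_sub_sq
  have i1 : IntervalIntegrable (fun x : ℝ => √(1 - x ^ 2)) volume (-1) 0 :=
    Continuous.intervalIntegrable (by fun_prop) _ _
  have i2 : IntervalIntegrable (fun x : ℝ => √(1 - x ^ 2)) volume 0 1 :=
    Continuous.intervalIntegrable (by fun_prop) _ _
  rw [← intervalIntegral.integral_add_adjacent_intervals i1 i2] at h
  have h2 := intervalIntegral.integral_comp_neg (a := 0) (b := 1) (fun x : ℝ => √(1 - x ^ 2))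
  simp only [neg_sq, neg_zero] at h2
  have h3 : bet 0 = ∫ x in (0 : ℝ)..1, √(1 - x ^ 2) := by
    unfold bet c
    simp only [pow_zero, one_mul]
  rw [h3]
  linarith

lemma hd_c3 (hT : T ∈ Ioo (0 : ℝ) 1) : HasDerivAt (fun T => (1 - T ^ 2) * c T) (-(3 * T * c T)) T := by
  have h1 : HasDerivAt (fun T : ℝ => 1 - T ^ 2) (-(2 * T)) T := by
    simpa using (hasDerivAt_pow 2 T).const_sub 1
  refine (h1.fun_mul (hd_c hT)).congr_deriv ?_
  have hc := (c_pos hT).ne'
  rw [← c_sq ⟨hT.1.le, hT.2.le⟩]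
  field_simp
  ring

lemma bet_one : bet 1 = 1 / 3 := by
  have h := int_deriv (F := fun T => (1 - T ^ 2) * c T) (f := fun T => -(3 * T * c T))
    (Continuous.continuousOn (by have := c_cont; fun_prop)) (fun x hx => hd_c3 hx)
    (Continuous.intervalIntegrable (by have := c_cont; fun_prop) _ _)
  have h2 : ∫ T in (0 : ℝ)..1, -(3 * T * c T) = -3 * bet 1 := by
    unfold bet
    rw [← intervalIntegral.integral_const_mul]
    congr 1
    funext T
    ring
  rw [h2, c_one] at h
  have h3 : c 0 = 1 := by simp [c]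
  rw [h3] at h
  linarith

lemma bet_rec (n : ℕ) : (n + 4) * bet (n + 2) = (n + 1) * bet n := by
  have h := int_deriv (F := fun T => T ^ (n + 1) * ((1 - T ^ 2) * c T))
    (f := fun T => (n + 1) * (T ^ n * c T) + -(n + 4) * (T ^ (n + 2) * c T))
    (Continuous.continuousOn (by have := c_cont; fun_prop)) (fun x hx => ?_)
    (((ii_bet n).const_mul _).add ((ii_bet (n + 2)).const_mul _))
  · rw [intervalIntegral.integral_add ((ii_bet n).const_mul _) ((ii_bet (n + 2)).const_mul _),
      intervalIntegral.integral_const_mul, intervalIntegral.integral_const_mul, c_one] at h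
    simp only [mul_zero, ne_eq, Nat.add_eq_zero_iff, one_ne_zero, and_false, not_false_eq_true,
      zero_pow, zero_mul, sub_zero] at h
    change (n + 1 : ℝ) * bet n + -(n + 4) * bet (n + 2) = 0 at h
    linarith
  · refine ((hasDerivAt_pow (n + 1) x).fun_mul (hd_c3 hx)).congr_deriv ?_
    rw [Nat.add_sub_cancel]
    push_cast
    ring

/-- enclosures of the moments of the square root -/
def bI : ℕ → Iv
  | 0 => (314159265358979323846 / 400000000000000000000, 314159265358979323847 / 400000000000000000000)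
  | 1 => (1 / 3, 1 / 3)
  | n + 2 => ismul ((n + 1) / (n + 4)) (bI n)

lemma mem_bI : ∀ n : ℕ, Mem (bI n) (bet n)
  | 0 => by
    rw [bet_zero, bI]
    have h1 := pi_gt_d20
    have h2 := pi_lt_d20
    unfold Mem
    push_cast
    norm_num at h1 h2 ⊢
    constructor <;> linarith
  | 1 => by
    rw [bet_one, bI]
    unfold Mem
    push_cast
    exact ⟨le_rfl, le_rfl⟩
  | n + 2 => by
    rw [bI]
    have h := (mem_bI n).smul ((n + 1) / (n + 4))
    have e : bet (n + 2) = (((n + 1) / (n + 4) : ℚ) : ℝ) * bet n := by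
      have := bet_rec n
      push_cast
      field_simp
      linarith
    rwa [e]

def bdot : List ℚ → ℕ → Iv
  | [], _ => (0, 0)
  | a :: l, n => iadd (ismul a (bI n)) (bdot l (n + 1))

lemma mem_bdot : ∀ (l : List ℚ) (n : ℕ), Mem (bdot l n) (lin l n bet)
  | [], _ => by
    simp only [bdot, lin]
    exact ⟨by simp, by simp⟩
  | a :: l, n => by
    simp only [bdot, lin]
    exact ((mem_bI n).smul a).add (mem_bdot l (n + 1))

lemma int_lin_bet : ∀ (l : List ℚ) (n : ℕ), ∫ T in (0 : ℝ)..1, T ^ n * (c T * ev l T) = lin l n bet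
  | [], n => by simp [lin]
  | a :: l, n => by
    have ih := int_lin_bet l (n + 1)
    have e : (fun T : ℝ => T ^ n * (c T * ev (a :: l) T))
        = fun T => a * (T ^ n * c T) + T ^ (n + 1) * (c T * ev l T) := by
      funext T
      rw [ev_cons]
      ring
    have i2 : IntervalIntegrable (fun T => T ^ (n + 1) * (c T * ev l T)) volume 0 1 :=
      ((continuous_pow _).mul (c_cont.mul (continuous_ev l))).intervalIntegrable _ _
    rw [e, intervalIntegral.integral_add ((ii_bet n).const_mul _) i2,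
      intervalIntegral.integral_const_mul, ih, lin]
    rfl

/-- integrals of polynomials -/
def pint : ℕ → List ℚ → ℚ
  | _, [] => 0
  | k, a :: l => a / (k + 1) + pint (k + 1) l

lemma int_pint : ∀ (l : List ℚ) (k : ℕ), ∫ T in (0 : ℝ)..1, T ^ k * ev l T = pint k l
  | [], k => by simp [pint]
  | a :: l, k => by
    have ih := int_pint l (k + 1)
    have e : (fun T : ℝ => T ^ k * ev (a :: l) T)
        = fun T => a * T ^ k + T ^ (k + 1) * ev l T := by
      funext T
      rw [ev_cons]
      ring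
    have i1 : IntervalIntegrable (fun T : ℝ => a * T ^ k) volume 0 1 :=
      Continuous.intervalIntegrable (by fun_prop) _ _
    have i2 : IntervalIntegrable (fun T => T ^ (k + 1) * ev l T) volume 0 1 :=
      ((continuous_pow _).mul (continuous_ev l)).intervalIntegrable _ _
    rw [e, intervalIntegral.integral_add i1 i2, intervalIntegral.integral_const_mul, ih, pint,
      integral_pow]
    push_cast
    simp only [one_pow, ne_eq, Nat.add_eq_zero_iff, one_ne_zero, and_false, not_false_eq_true,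
      zero_pow, sub_zero]
    ring

/-! ### the functions HH and r -/

lemma r_zero : r 0 = r0 := by
  unfold r r0
  simp

lemma r_contOn : ContinuousOn r (Ioc 0 1) := c_cont.continuousOn.mul (tail_contOn ei_contOn)

lemma r_cont : ContinuousOn r (Icc 0 1) := contOn_Icc r_contOn (by rw [r_zero]; exact r_to)

lemma r_one : r 1 = 0 := by
  change c 1 * _ = 0
  rw [c_one, zero_mul]

lemma r_eq' (hT : T ∈ Ioc (0 : ℝ) 1) : r T = HH T - 9 / 2 * (c T * Q3 T) := by
  rcases hT.2.lt_or_eq with h | h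
  · exact r_eq ⟨hT.1, h⟩
  · rw [h, r_one, c_one]
    unfold HH H178.Flow3.lin
    rw [ρ_one, σ_one, M_one]
    ring

lemma hI_HH (n : ℕ) : HI (fun T => T ^ n * HH T)
    (-(Wm (n + 3) / (12 * (n + 2) * (n + 4))) - Wm (n + 1) / (6 * (n + 2)) - Wm (n + 3) / (24 * (n + 4))
      + (12 * Wm n + 13 * Wm (n + 1) - Wm (n + 3)) / 24) := by
  refine ((((((hI_ρ (n + 1)).smul (1 / 12)).add ((hI_σ1 n).smul (-1 / 6))).add
    ((hI_σ1 (n + 2)).smul (-1 / 24))).add
    (((hI_N n).smul (12 / 24)).add (((hI_N (n + 1)).smul (13 / 24)).add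
      ((hI_N (n + 3)).smul (-1 / 24)))))).congr (fun T hT => ?_) ?_
  · have h0 := hT.1.ne'
    have h1 : (1 : ℝ) + T ≠ 0 := by linarith [hT.1]
    unfold HH H178.Flow3.lin N
    field_simp
    ring
  · have : (n : ℝ) + 2 ≠ 0 := by positivity
    have : (n : ℝ) + 4 ≠ 0 := by positivity
    push_cast
    rw [show (n : ℝ) + 1 + 1 = n + 2 by ring, show (n : ℝ) + 1 + 3 = n + 4 by ring,
      show (n : ℝ) + 2 + 2 = n + 4 by ring,
      show n + 1 + 2 = n + 3 from rfl,
      show n + 2 + 1 = n + 3 from rfl]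
    field_simp
    ring

lemma ii_r (n : ℕ) : IntervalIntegrable (fun T => T ^ n * r T) volume 0 1 :=
  ii_of_contOn ((continuousOn_pow n).mul r_cont)

lemma ii_cQ (n : ℕ) : IntervalIntegrable (fun T => T ^ n * (c T * Q3 T)) volume 0 1 := by
  have h := (((hI_HH n).1.sub (ii_r n)).const_mul (2 / 9))
  refine h.congr_ae ((ae_restrict_iff' measurableSet_uIoc).2 (ae_of_all _ fun T hT => ?_))
  rw [uIoc_of_le zero_le_one] at hT
  change 2 / 9 * (T ^ n * HH T - T ^ n * r T) = T ^ n * (c T * Q3 T)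
  rw [r_eq' hT]
  ring

/-- the polynomial (1 - T) ^ 19 -/
def m19 : List ℚ := pcomp (pmon 19) [1, -1]

lemma ev_m19 : ev m19 T = (1 - T) ^ 19 := by
  unfold m19
  rw [ev_pcomp, ev_pmon]
  simp only [ev_cons, ev_nil]
  push_cast
  ring

/-- enclosure of the moments of c Q3 -/
def sI (k : ℕ) : Iv := ((bdot QL (k + 1)).1, (bdot QL (k + 1)).2 + Cr / 19 * pint k m19)

lemma mem_sI (k : ℕ) : Mem (sI k) (∫ T in (0 : ℝ)..1, T ^ (k + 1) * (c T * Q3 T)) := by
  have h1 := mem_bdot QL (k + 1)
  rw [← int_lin_bet] at h1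
  have h2 := int_pint m19 k
  have i1 := ii_cQ (k + 1)
  have i2 : IntervalIntegrable (fun T => T ^ (k + 1) * (c T * ev QL T)) volume 0 1 :=
    ((continuous_pow _).mul (c_cont.mul (continuous_ev QL))).intervalIntegrable _ _
  have i3 : IntervalIntegrable (fun T => T ^ (k + 1) * (c T * ev QL T)
      + Cr / 19 * (T ^ k * ev m19 T)) volume 0 1 := by
    refine i2.add (IntervalIntegrable.const_mul ?_ _)
    exact ((continuous_pow _).mul (continuous_ev m19)).intervalIntegrable _ _
  have hlo : ∫ T in (0 : ℝ)..1, T ^ (k + 1) * (c T * ev QL T)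
      ≤ ∫ T in (0 : ℝ)..1, T ^ (k + 1) * (c T * Q3 T) := by
    refine intervalIntegral.integral_mono_on_of_le_Ioo zero_le_one i2 i1 fun T hT => ?_
    have h3 := (Q3_bracket ⟨hT.1, hT.2.le⟩).1
    have h4 : 0 ≤ T ^ (k + 1) := by have := hT.1; positivity
    exact mul_le_mul_of_nonneg_left (mul_le_mul_of_nonneg_left (by linarith) c_nonneg) h4
  have hhi : ∫ T in (0 : ℝ)..1, T ^ (k + 1) * (c T * Q3 T)
      ≤ ∫ T in (0 : ℝ)..1, (T ^ (k + 1) * (c T * ev QL T) + Cr / 19 * (T ^ k * ev m19 T)) := by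
    refine intervalIntegral.integral_mono_on_of_le_Ioo zero_le_one i1 i3 fun T hT => ?_
    have h3 := (Q3_bracket ⟨hT.1, hT.2.le⟩)
    have h0 := hT.1
    have h4 : 0 ≤ T ^ (k + 1) := by positivity
    have h5 : c T * (Q3 T - ev QL T) ≤ 1 * (Cr / 19 * ((1 - T) ^ 19 / T)) :=
      mul_le_mul (c_le_one ⟨hT.1.le, hT.2.le⟩) h3.2 h3.1 zero_le_one
    have h6 := mul_le_mul_of_nonneg_left h5 h4
    have h7 : T ^ (k + 1) * (1 * (Cr / 19 * ((1 - T) ^ 19 / T)))
        = Cr / 19 * (T ^ k * (1 - T) ^ 19) := by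
      rw [pow_succ]
      field_simp
    rw [h7] at h6
    rw [ev_m19]
    linarith
  have i4 : IntervalIntegrable (fun T => (Cr : ℝ) / 19 * (T ^ k * ev m19 T)) volume 0 1 :=
    IntervalIntegrable.const_mul
      (((continuous_pow _).mul (continuous_ev m19)).intervalIntegrable _ _) _
  rw [intervalIntegral.integral_add i2 i4, intervalIntegral.integral_const_mul, h2] at hhi
  unfold Mem sI
  push_cast
  unfold Mem at h1
  constructor
  · linarith [h1.1]
  · linarith [h1.2]

/-- product with the square root of 2 -/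
def is2 (I : Iv) : Iv := (I.1 * (141421356237309504880 / 100000000000000000000),
  I.2 * (141421356237309504881 / 100000000000000000000))

lemma sqrt2_lo : (141421356237309504880 / 100000000000000000000 : ℝ) ≤ √2 := by
  apply le_sqrt_of_sq_le
  norm_num

lemma sqrt2_hi : √2 ≤ (141421356237309504881 / 100000000000000000000 : ℝ) := by
  rw [sqrt_le_left (by norm_num)]
  norm_num

lemma Mem.s2 {I : Iv} {x : ℝ} (h : Mem I x) (h0 : 0 ≤ I.1) : Mem (is2 I) (x * √2) := by
  unfold Mem is2 at *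
  have h0' : (0 : ℝ) ≤ I.1 := by exact_mod_cast h0
  push_cast
  exact ⟨mul_le_mul h.1 sqrt2_lo (by norm_num) (h0'.trans h.1),
    mul_le_mul h.2 sqrt2_hi (sqrt_nonneg _) ((h0'.trans h.1).trans h.2)⟩

/-- the normalised moments of r -/
noncomputable def Rm (n : ℕ) : ℝ := 2 * √2 * ∫ T in (0 : ℝ)..1, T ^ n * r T

lemma hI_r (n : ℕ) : HI (fun T => T ^ n * r T) (Rm n) := ⟨ii_r n, rfl⟩

/-- the normalised moments of e -/
noncomputable def Em (n : ℕ) : ℝ := 2 * √2 * ∫ T in (0 : ℝ)..1, T ^ n * e T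

lemma Rm_top (k : ℕ) : Rm (k + 1) = 2 * √2 * (∫ T in (0 : ℝ)..1, T ^ (k + 1) * HH T)
    + -9 * ((∫ T in (0 : ℝ)..1, T ^ (k + 1) * (c T * Q3 T)) * √2) := by
  unfold Rm
  have h : ∫ T in (0 : ℝ)..1, T ^ (k + 1) * r T
      = ∫ T in (0 : ℝ)..1, (T ^ (k + 1) * HH T - 9 / 2 * (T ^ (k + 1) * (c T * Q3 T))) := by
    refine intervalIntegral.integral_congr_ae (ae_of_all _ fun T hT => ?_)
    rw [uIoc_of_le zero_le_one] at hT
    rw [r_eq' hT]
    ring
  rw [h, intervalIntegral.integral_sub (hI_HH (k + 1)).1 ((ii_cQ (k + 1)).const_mul _),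
    intervalIntegral.integral_const_mul]
  ring

/-- the recursion -/
lemma Rm_rec (n : ℕ) : (n + 1) * Rm n = (n + 4) * Rm (n + 2) + Em n := by
  have ie := (hI_e n).1
  have h := hI_zero (F := fun T => T ^ (n + 1) * ((1 - T ^ 2) * r T))
    (f := fun T => ((n + 1) * (T ^ n * r T) + -(n + 4) * (T ^ (n + 2) * r T)) + -1 * (T ^ n * e T))
    (ContinuousOn.mul (by fun_prop) (ContinuousOn.mul (by fun_prop) r_cont)) (fun x hx => ?_)
    ((((ii_r n).const_mul _).add ((ii_r (n + 2)).const_mul _)).add (ie.const_mul _)) (by simp)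
  · have h2 := h.2
    rw [intervalIntegral.integral_add (((ii_r n).const_mul _).add ((ii_r (n + 2)).const_mul _))
      (ie.const_mul _), intervalIntegral.integral_add ((ii_r n).const_mul _)
      ((ii_r (n + 2)).const_mul _), intervalIntegral.integral_const_mul,
      intervalIntegral.integral_const_mul, intervalIntegral.integral_const_mul] at h2
    unfold Rm Em
    linarith
  · have h1 : HasDerivAt (fun T : ℝ => 1 - T ^ 2) (-(2 * x)) x := by
      simpa using (hasDerivAt_pow 2 x).const_sub 1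
    refine ((hasDerivAt_pow (n + 1) x).fun_mul (h1.fun_mul (hasDerivAt_r hx))).congr_deriv ?_
    have h0 := hx.1.ne'
    have hw : 1 - x ^ 2 ≠ 0 := by
      have : 0 < 1 - x ^ 2 := by nlinarith [hx.1, hx.2]
      exact this.ne'
    rw [Nat.add_sub_cancel]
    unfold rD
    push_cast
    field_simp
    ring

/-- the value at zero -/
lemma r0_rec : 2 * √2 * r0 = 3 * Rm 1 + 2 * √2 * (∫ T in (0 : ℝ)..1, T ^ 0 * (e T / T)) := by
  have ie := (hI_e' 0).1
  have h := int_deriv (F := fun T => (1 - T ^ 2) * r T)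
    (f := fun T => -3 * (T ^ 1 * r T) + -1 * (T ^ 0 * (e T / T)))
    (ContinuousOn.mul (by fun_prop) r_cont) (fun x hx => ?_)
    (((ii_r 1).const_mul _).add (ie.const_mul _))
  · rw [intervalIntegral.integral_add ((ii_r 1).const_mul _) (ie.const_mul _),
      intervalIntegral.integral_const_mul, intervalIntegral.integral_const_mul, r_zero] at h
    unfold Rm
    have h3 : r0 = 3 * (∫ T in (0 : ℝ)..1, T ^ 1 * r T) + ∫ T in (0 : ℝ)..1, T ^ 0 * (e T / T) := by
      have : (1 - (1 : ℝ) ^ 2) * r 1 - (1 - 0 ^ 2) * r0 = -r0 := by ring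
      rw [this] at h
      linarith
    nth_rewrite 1 [h3]
    ring
  · have h1 : HasDerivAt (fun T : ℝ => 1 - T ^ 2) (-(2 * x)) x := by
      simpa using (hasDerivAt_pow 2 x).const_sub 1
    refine (h1.fun_mul (hasDerivAt_r hx)).congr_deriv ?_
    have h0 := hx.1.ne'
    have hw : 1 - x ^ 2 ≠ 0 := by
      have : 0 < 1 - x ^ 2 := by nlinarith [hx.1, hx.2]
      exact this.ne'
    unfold rD
    push_cast
    field_simp
    ring

end Vale.Agent.P224.R2.H176.F3
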