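import Vale.Agent.P224.R2.H176.F3.Rel

/-!
A closed form of the function r of the flow.
-/

namespace Vale.Agent.P224.R2.H176.F3

open MeasureTheory Set Real Filter Vale.Agent.P224.R2.H178.Flow3 Vale.Agent.P224.R2.H925
open scoped Topology

/-- the remaining elementary integrand -/
noncomputable def q3 (u : ℝ) : ℝ := 1 / (u * ((3 - u) * (1 + u) * √((3 - u) * (1 + u))))

noncomputable def Q3 (T : ℝ) : ℝ := ∫ u in T..1, q3 u

noncomputable def HH : ℝ → ℝ := H178.Flow3.lin (fun T => T / 12) (fun T => -((4 + T ^ 2) / 24))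
  (fun T => (4 - T) * (3 + T) / 24) (fun _ => 0)

variable {T : ℝ}

lemma y_pos' (hT : T ∈ Ioc (0 : ℝ) 1) : 0 < (3 - T) * (1 + T) :=
  mul_pos (by linarith [hT.2]) (by linarith [hT.1])

lemma q3_contOn : ContinuousOn q3 (Ioc 0 1) := by
  unfold q3
  refine ContinuousOn.div (by fun_prop) (by fun_prop) fun t ht => ?_
  have h := y_pos' ht
  exact (mul_pos ht.1 (mul_pos h (sqrt_pos.2 h))).ne'

lemma ord_HH : Ord 3 HH := by
  have h1 : Ord 3 (fun T => (4 - T) * (3 + T) / 24 * M T) :=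
    ord_M.bmul (G := fun T => (4 - T) * (3 + T) / 24) (by fun_prop)
  have h2 : Ord 3 (fun T => (T / 12) * ρ T) :=
    (ord_ρ.mono (by norm_num)).bmul (G := fun T => T / 12) (by fun_prop)
  have h3 : Ord 3 (fun T => -((4 + T ^ 2) / 24) * σ T) :=
    (ord_σ.mono (by norm_num)).bmul (G := fun T => -((4 + T ^ 2) / 24)) (by fun_prop)
  refine Ord.congr ((h2.add h3).add h1) fun T hT => ?_
  unfold HH H178.Flow3.lin
  ring

lemma tendsto_HH : Tendsto (fun T => HH T / c T) (𝓝[<] 1) (𝓝 0) := by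
  have h1 : (fun T => HH T * (c T)⁻¹) =O[𝓝[<] (1 : ℝ)] fun T => c T ^ 3 * (c T)⁻¹ :=
    Asymptotics.IsBigO.mul ord_HH (Asymptotics.isBigO_refl (fun T => (c T)⁻¹) _)
  have h2 : Tendsto (fun T => c T ^ 3 * (c T)⁻¹) (𝓝[<] 1) (𝓝 0) := by
    have h3 := tendsto_c.pow 2
    rw [zero_pow two_ne_zero] at h3
    refine h3.congr' ?_
    filter_upwards [l1_Ioo] with T hT
    have := (c_pos hT).ne'
    field_simp
  exact h1.trans_tendsto h2

lemma tail_to_one {g : ℝ → ℝ} (hg : ContinuousOn g (Ioc 0 1)) :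
    Tendsto (fun T => ∫ u in T..1, g u) (𝓝[<] 1) (𝓝 0) := by
  have h := tail_contOn hg 1 ⟨one_pos, le_rfl⟩
  have e : (fun T => ∫ u in T..1, g u) 1 = 0 := intervalIntegral.integral_same
  unfold ContinuousWithinAt at h
  rw [e] at h
  refine h.mono_left ?_
  have : 𝓝[<] (1 : ℝ) = 𝓝[Ioo 0 1] 1 := (nhdsWithin_Ioo_eq_nhdsLT one_pos).symm
  rw [this]
  exact nhdsWithin_mono _ Ioo_subset_Ioc_self

lemma hd_HH (hT : T ∈ Ioo (0 : ℝ) 1) : HasDerivAt HH
    (-((T ^ 2 * HH T + e T + 9 / 2 * ((1 - T) / (3 - T)) * j T) / (T * (1 - T ^ 2)))) T := by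
  have h0 := hT.1.ne'
  have h1 : (1 : ℝ) + T ≠ 0 := by linarith [hT.1]
  have h2 : (1 : ℝ) - T ≠ 0 := by linarith [hT.2]
  have h3 : (3 : ℝ) + T ≠ 0 := by linarith [hT.1]
  have h4 : (3 : ℝ) - T ≠ 0 := by linarith [hT.2]
  have hid : HasDerivAt (fun T : ℝ => T) 1 T := hasDerivAt_id T
  have hp := hasDerivAt_pow 2 T
  have ha : HasDerivAt (fun T : ℝ => T / 12) (1 / 12) T := hid.div_const 12
  have hb : HasDerivAt (fun T : ℝ => -((4 + T ^ 2) / 24)) (-(T / 12)) T :=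
    ((hp.const_add 4).div_const 24).fun_neg.congr_deriv (by push_cast; ring)
  have hc : HasDerivAt (fun T : ℝ => (4 - T) * (3 + T) / 24) ((1 - 2 * T) / 24) T :=
    (((hid.const_sub 4).fun_mul (hid.const_add 3)).div_const 24).congr_deriv (by ring)
  have hd : HasDerivAt (fun _ : ℝ => (0 : ℝ)) 0 T := hasDerivAt_const _ _
  refine (hasDerivAt_lin ha hb hc hd hT).congr_deriv ?_
  unfold HH e H178.Flow3.lin
  rw [show (9 : ℝ) - T ^ 2 = (3 - T) * (3 + T) by ring,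
    show (1 : ℝ) - T ^ 2 = (1 - T) * (1 + T) by ring]
  field_simp
  ring

lemma hd_c (hT : T ∈ Ioo (0 : ℝ) 1) : HasDerivAt c (-(T / c T)) T := by
  have hw : 0 < 1 - T ^ 2 := by nlinarith [hT.1, hT.2]
  have h1 : HasDerivAt (fun T : ℝ => 1 - T ^ 2) (-(2 * T)) T := by
    simpa using (hasDerivAt_pow 2 T).const_sub 1
  refine (h1.sqrt hw.ne').congr_deriv ?_
  change _ / (2 * c T) = _
  have := (c_pos hT).ne'
  field_simp

/-- the closed form -/
theorem r_eq (hT : T ∈ Ioo (0 : ℝ) 1) : r T = HH T - 9 / 2 * (c T * Q3 T) := by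
  set Φ : ℝ → ℝ := fun T => HH T / c T - 9 / 2 * Q3 T - ∫ u in T..1, ei u with hΦ
  have hd : ∀ T ∈ Ioo (0 : ℝ) 1, HasDerivAt Φ 0 T := by
    intro T hT
    have hc := c_pos hT
    have hc2 := c_sq (T := T) ⟨hT.1.le, hT.2.le⟩
    refine ((((hd_HH hT).fun_div (hd_c hT) hc.ne').fun_sub
      ((hasDerivAt_tail q3_contOn hT).const_mul (9 / 2))).fun_sub
      (hasDerivAt_tail ei_contOn hT)).congr_deriv ?_
    have hy := y_pos' ⟨hT.1, hT.2.le⟩
    have hs := sqrt_pos.2 hy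
    have hs2 := mul_self_sqrt hy.le
    have hj := j_eq (T := T) ⟨hT.1.le, hT.2.le⟩
    have hJ : H178.Flow3.J T = 1 / √((3 - T) * (1 + T)) := by
      unfold H178.Flow3.J
      rw [mul_comm (1 + T)]
    rw [hj, hJ]
    unfold ei q3
    have h6 : √(1 - T ^ 2) = c T := rfl
    rw [h6, ← hc2]
    have h0 := hT.1.ne'
    have h4 : (3 : ℝ) - T ≠ 0 := by linarith [hT.2]
    have h5 : (1 : ℝ) + T ≠ 0 := by linarith [hT.1]
    have h7 : (1 - T) / (3 - T) = c T ^ 2 / ((3 - T) * (1 + T)) := by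
      rw [hc2]
      field_simp
      ring
    rw [h7]
    generalize √((3 - T) * (1 + T)) = s at *
    have hc' := hc.ne'
    have hs' := hs.ne'
    field_simp
    ring
  have hcst : ∀ S ∈ Ioo T 1, Φ S = Φ T := by
    intro S hS
    obtain ⟨x, hx, hxe⟩ := exists_hasDerivAt_eq_slope Φ (fun _ => 0) hS.1
      (fun y hy => (hd y ⟨hT.1.trans_le hy.1, hy.2.trans_lt hS.2⟩).continuousAt.continuousWithinAt)
      (fun y hy => hd y ⟨hT.1.trans hy.1, hy.2.trans hS.2⟩)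
    have h3 : S - T ≠ 0 := by linarith [hS.1]
    have h4 := (eq_div_iff h3).1 hxe
    linarith
  have hlim : Tendsto Φ (𝓝[<] 1) (𝓝 0) := by
    have h := (tendsto_HH.sub ((tail_to_one q3_contOn).const_mul (9 / 2))).sub
      (tail_to_one ei_contOn)
    rw [mul_zero, sub_zero, sub_zero] at h
    exact h
  have hlim2 : Tendsto Φ (𝓝[<] 1) (𝓝 (Φ T)) := by
    refine tendsto_const_nhds.congr' ?_
    filter_upwards [Ioo_mem_nhdsLT hT.2] with S hS
    exact (hcst S hS).symm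
  have h := tendsto_nhds_unique hlim2 hlim
  have hc := (c_pos hT).ne'
  simp only [hΦ] at h
  have h2 : r T = c T * ∫ u in T..1, ei u := rfl
  rw [h2]
  have h3 : (∫ u in T..1, ei u) = HH T / c T - 9 / 2 * Q3 T := by linarith
  rw [h3]
  field_simp

end Vale.Agent.P224.R2.H176.F3
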