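import Vale.Agent.P224.R2.H176.F3.NumW

/-!
Moments of the functions of the flow in terms of Gm and Wm.
-/

namespace Vale.Agent.P224.R2.H176.F3

open MeasureTheory Set Real Filter Vale.Agent.P224.R2.H178.Flow3
open scoped Topology

/-- integrable with given (normalised) integral -/
def HI (f : ℝ → ℝ) (x : ℝ) : Prop :=
  IntervalIntegrable f volume 0 1 ∧ 2 * √2 * ∫ T in (0 : ℝ)..1, f T = x

section HI

variable {f g : ℝ → ℝ} {x y : ℝ}

lemma HI.add (h : HI f x) (h' : HI g y) : HI (fun T => f T + g T) (x + y) := by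
  refine ⟨h.1.add h'.1, ?_⟩
  rw [intervalIntegral.integral_add h.1 h'.1, mul_add, h.2, h'.2]

lemma HI.smul (h : HI f x) (c : ℝ) : HI (fun T => c * f T) (c * x) := by
  refine ⟨h.1.const_mul c, ?_⟩
  rw [intervalIntegral.integral_const_mul, ← h.2]
  ring

lemma HI.congr (h : HI f x) (hfg : ∀ T ∈ Ioc (0 : ℝ) 1, f T = g T) (hxy : x = y) : HI g y := by
  have e : ∀ T ∈ uIoc (0 : ℝ) 1, f T = g T := by
    rw [uIoc_of_le zero_le_one]
    exact hfg
  refine ⟨h.1.congr_ae ((ae_restrict_iff' measurableSet_uIoc).2 (ae_of_all _ e)), ?_⟩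
  rw [← hxy, ← h.2, intervalIntegral.integral_congr_ae (ae_of_all _ e)]

end HI

lemma σ_one : σ 1 = 0 := by
  unfold σ O2
  rw [intervalIntegral.integral_same]
  simp

lemma hI_N (n : ℕ) : HI (fun T => T ^ n * N T) (Wm n) := ⟨ii_mul_N (by fun_prop), rfl⟩

lemma hI_G (n : ℕ) : HI (fun T => T ^ n * (j T / (3 - T))) (Gm n) :=
  ⟨ii_of_contOn ((continuousOn_pow n).mul jg_cont), rfl⟩

lemma hI_j (n : ℕ) : HI (fun T => T ^ n * j T) (3 * Gm n - Gm (n + 1)) := by
  refine (((hI_G n).smul 3).add ((hI_G (n + 1)).smul (-1))).congr (fun T hT => ?_) (by ring)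
  have h3 : (3 : ℝ) - T ≠ 0 := by linarith [hT.2]
  field_simp
  ring

lemma hI_zero {F f : ℝ → ℝ} (hc : ContinuousOn F (Icc 0 1))
    (hd : ∀ x ∈ Ioo (0 : ℝ) 1, HasDerivAt F (f x) x) (hi : IntervalIntegrable f volume 0 1)
    (h1 : F 1 = F 0) : HI f 0 := by
  refine ⟨hi, ?_⟩
  rw [int_deriv hc hd hi, h1, sub_self, mul_zero]

lemma ii_σ : IntervalIntegrable (fun T => σ T / T) volume 0 1 := by
  refine ii_of_bound (σ_contOn.div continuousOn_id fun t ht => ht.1.ne') (C := 14) fun u hu => ?_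
  rw [abs_div, abs_of_pos hu.1, div_le_iff₀ hu.1]
  refine (abs_σ_le hu).trans_eq ?_
  have h := mul_self_sqrt hu.1.le
  have h2 := (sqrt_pos.2 hu.1).ne'
  field_simp
  nlinarith

/-- moments of σ / T -/
lemma hI_σ (n : ℕ) : HI (fun T => T ^ n * (σ T / T)) (Wm n / (n + 1)) := by
  have i1 : IntervalIntegrable (fun T => T ^ n * (σ T / T)) volume 0 1 :=
    ii_σ.continuousOn_mul (by fun_prop)
  have h := hI_zero (F := fun T => T ^ n * σ T)
    (f := fun T => (n + 1) * (T ^ n * (σ T / T)) + -1 * (T ^ n * N T)) ?_ ?_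
    ((i1.const_mul _).add ((hI_N n).1.const_mul _)) ?_
  · have h2 := (h.add ((hI_N n).smul 1)).smul (1 / (n + 1 : ℝ))
    refine h2.congr (fun T hT => ?_) ?_
    · have : (n : ℝ) + 1 ≠ 0 := by positivity
      field_simp
      ring
    · ring
  · exact (continuousOn_pow n).mul σ_cont
  · intro T hT
    refine ((hasDerivAt_pow n T).fun_mul (hasDerivAt_σ hT)).congr_deriv ?_
    have h0 := hT.1.ne'
    unfold N
    rcases n with _ | n
    · simp only [pow_zero, CharP.cast_eq_zero]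
      ring
    · rw [Nat.add_sub_cancel, pow_succ]
      push_cast
      field_simp
      ring
  · simp [σ_one, σ_zero]

lemma hI_σ1 (n : ℕ) : HI (fun T => T ^ n * σ T) (Wm (n + 1) / (n + 2)) := by
  refine (hI_σ (n + 1)).congr (fun T hT => ?_) (by push_cast; ring)
  have h0 := hT.1.ne'
  field_simp
  ring

lemma hI_ρ (n : ℕ) : HI (fun T => T ^ n * ρ T) (-(Wm (n + 2) / ((n + 1) * (n + 3)))) := by
  have i1 : IntervalIntegrable (fun T => T ^ n * ρ T) volume 0 1 :=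
    ii_of_contOn ((continuousOn_pow n).mul ρ_cont)
  have h := hI_zero (F := fun T => T ^ (n + 1) * ρ T)
    (f := fun T => (n + 1) * (T ^ n * ρ T) + T ^ (n + 1) * σ T) ?_ ?_
    ((i1.const_mul _).add (hI_σ1 (n + 1)).1) ?_
  · have h2 := (h.add ((hI_σ1 (n + 1)).smul (-1))).smul (1 / (n + 1 : ℝ))
    refine h2.congr (fun T hT => ?_) ?_
    · have : (n : ℝ) + 1 ≠ 0 := by positivity
      field_simp
      ring
    · have : (n : ℝ) + 1 ≠ 0 := by positivity
      have : (n : ℝ) + 3 ≠ 0 := by positivity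
      push_cast
      rw [show (n : ℝ) + 1 + 2 = n + 3 by ring, show n + 1 + 1 = n + 2 from rfl]
      field_simp
      ring
  · exact (continuousOn_pow (n + 1)).mul ρ_cont
  · intro T hT
    refine ((hasDerivAt_pow (n + 1) T).fun_mul (hasDerivAt_ρ hT)).congr_deriv ?_
    rw [Nat.add_sub_cancel]
    push_cast
    ring
  · simp [ρ_one]

/-- moments of e / T -/
lemma hI_e' (n : ℕ) : HI (fun T => T ^ n * (e T / T))
    (Wm (n + 2) / (12 * (n + 1) * (n + 3)) + Wm n / (6 * (n + 1)) + Wm (n + 2) / (24 * (n + 3))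
      - (Wm n + 12 * Wm (n + 1) + 11 * Wm (n + 2)) / 24
      + 9 / 8 * (3 * Gm n - 4 * Gm (n + 1) + Gm (n + 2))) := by
  refine ((((((hI_ρ n).smul (-1 / 12)).add ((hI_σ n).smul (1 / 6))).add
    ((hI_σ (n + 2)).smul (1 / 24))).add
    (((hI_N n).smul (-1 / 24)).add (((hI_N (n + 1)).smul (-12 / 24)).add
      ((hI_N (n + 2)).smul (-11 / 24))))).add
    (((hI_j n).smul (9 / 8)).add ((hI_j (n + 1)).smul (-9 / 8)))).congr (fun T hT => ?_) ?_
  · have h0 := hT.1.ne'
    have h1 : (1 : ℝ) + T ≠ 0 := by linarith [hT.1]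
    unfold e H178.Flow3.lin N
    field_simp
    ring
  · have : (n : ℝ) + 1 ≠ 0 := by positivity
    have : (n : ℝ) + 3 ≠ 0 := by positivity
    push_cast
    rw [show (n : ℝ) + 2 + 1 = n + 3 by ring, show n + 1 + 1 = n + 2 from rfl]
    field_simp
    ring

/-- moments of e -/
lemma hI_e (n : ℕ) : HI (fun T => T ^ n * e T)
    (Wm (n + 3) / (12 * (n + 2) * (n + 4)) + Wm (n + 1) / (6 * (n + 2)) + Wm (n + 3) / (24 * (n + 4))
      - (Wm (n + 1) + 12 * Wm (n + 2) + 11 * Wm (n + 3)) / 24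
      + 9 / 8 * (3 * Gm (n + 1) - 4 * Gm (n + 2) + Gm (n + 3))) := by
  refine (hI_e' (n + 1)).congr (fun T hT => ?_) ?_
  · have h0 := hT.1.ne'
    field_simp
    ring
  · push_cast
    rw [show (n : ℝ) + 1 + 1 = n + 2 by ring, show (n : ℝ) + 1 + 3 = n + 4 by ring,
      show n + 1 + 1 = n + 2 from rfl, show n + 1 + 2 = n + 3 from rfl]

/-- moments of T y -/
lemma hI_Ty (n : ℕ) : HI (fun T => T ^ n * (T * y T))
    (Wm (n + 3) / (12 * (n + 2) * (n + 4)) + Wm (n + 1) / (6 * (n + 2)) + Wm (n + 3) / (24 * (n + 4))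
      + (11 * Wm (n + 1) + 12 * Wm (n + 2) + Wm (n + 3)) / 24
      + 9 / 4 * (3 * Gm (n + 1) - Gm (n + 2))) := by
  refine ((((((hI_ρ (n + 1)).smul (-1 / 12)).add ((hI_σ1 n).smul (1 / 6))).add
    ((hI_σ1 (n + 2)).smul (1 / 24))).add
    (((hI_N (n + 1)).smul (11 / 24)).add (((hI_N (n + 2)).smul (12 / 24)).add
      ((hI_N (n + 3)).smul (1 / 24))))).add
    ((hI_j (n + 1)).smul (9 / 4))).congr (fun T hT => ?_) ?_
  · have h0 := hT.1.ne'
    have h1 : (1 : ℝ) + T ≠ 0 := by linarith [hT.1]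
    unfold y H178.Flow3.lin N
    field_simp
    ring
  · have : (n : ℝ) + 2 ≠ 0 := by positivity
    have : (n : ℝ) + 4 ≠ 0 := by positivity
    push_cast
    rw [show (n : ℝ) + 1 + 1 = n + 2 by ring, show (n : ℝ) + 1 + 3 = n + 4 by ring,
      show (n : ℝ) + 2 + 2 = n + 4 by ring,
      show n + 1 + 1 = n + 2 from rfl, show n + 1 + 2 = n + 3 from rfl,
      show n + 2 + 1 = n + 3 from rfl]
    field_simp
    ring

/-- moments of ε -/
lemma hI_ε (n : ℕ) : HI (fun T => T ^ n * ε T)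
    (-(Wm (n + 2) / ((n + 1) * (n + 3))) + 2 * (Wm (n + 4) / ((n + 3) * (n + 5)))
      - Wm (n + 2) / (n + 3) + Wm (n + 4) / (n + 5)) := by
  refine ((((hI_ρ n).add ((hI_ρ (n + 2)).smul (-2))).add
    ((hI_σ1 (n + 1)).smul (-1))).add (hI_σ1 (n + 3))).congr (fun T hT => ?_) ?_
  · unfold ε H178.Flow3.lin
    ring
  · push_cast
    rw [show (n : ℝ) + 2 + 1 = n + 3 by ring, show (n : ℝ) + 2 + 3 = n + 5 by ring,
      show (n : ℝ) + 1 + 2 = n + 3 by ring, show (n : ℝ) + 3 + 2 = n + 5 by ring,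
      show n + 2 + 2 = n + 4 from rfl, show n + 1 + 1 = n + 2 from rfl,
      show n + 3 + 1 = n + 4 from rfl]
    ring

lemma ρ0_eq : 2 * √2 * ρ 0 = -(Wm 1 / 2) := by
  have h : HI om (-Wm 1) := by
    refine ((hI_N 1).smul (-1)).congr (fun T hT => ?_) (by ring)
    unfold om N
    ring
  rw [ρ_zero]
  have := h.2
  linarith

end Vale.Agent.P224.R2.H176.F3
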