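import Vale.Agent.P224.R2.H176.F3.Gm
import Vale.Agent.P224.R2.H178.Flow3

/-!
Moments of M / (1 + T).
-/

namespace Vale.Agent.P224.R2.H176.F3

open MeasureTheory Set Real Filter Vale.Agent.P224.R2.H178.Flow3
open scoped Topology

lemma ii_of_bound {f : ℝ → ℝ} (hc : ContinuousOn f (Ioc 0 1)) {C : ℝ}
    (hC : ∀ u ∈ Ioc (0 : ℝ) 1, |f u| ≤ C / √u) : IntervalIntegrable f volume 0 1 := by
  have h1 : IntervalIntegrable (fun u : ℝ => C * u ^ (-(1 / 2) : ℝ)) volume 0 1 :=
    (intervalIntegral.intervalIntegrable_rpow' (by norm_num)).const_mul C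
  refine h1.mono_fun' ?_ ?_
  · rw [uIoc_of_le zero_le_one]
    exact hc.aestronglyMeasurable measurableSet_Ioc
  · rw [uIoc_of_le zero_le_one]
    refine (ae_restrict_iff' measurableSet_Ioc).2 (ae_of_all _ fun u hu => ?_)
    have := hC u hu
    change ‖f u‖ ≤ C * u ^ (-(1 / 2) : ℝ)
    rw [rpow_m12 hu.1, norm_eq_abs]
    calc |f u| ≤ C / √u := this
      _ = C * (1 / √u) := by ring

/-- the function M / (1 + T) -/
noncomputable def N (T : ℝ) : ℝ := M T / (1 + T)

lemma N_contOn : ContinuousOn N (Ioc 0 1) :=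
  M_contOn.div (by fun_prop) fun t ht => by linarith [ht.1]

lemma N_nonneg {T : ℝ} (hT : T ∈ Ioc (0 : ℝ) 1) : 0 ≤ N T :=
  div_nonneg (M_nonneg hT) (by linarith [hT.1])

lemma N_le {T : ℝ} (hT : T ∈ Ioc (0 : ℝ) 1) : N T ≤ 7 / √T := by
  refine le_trans ?_ (M_le hT)
  unfold N
  exact div_le_self (M_nonneg hT) (by linarith [hT.1])

/-- integrability of a continuous function times N -/
lemma ii_mul_N {p : ℝ → ℝ} (hp : ContinuousOn p (Icc 0 1)) :
    IntervalIntegrable (fun T => p T * N T) volume 0 1 := by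
  obtain ⟨C, hC⟩ := isCompact_Icc.exists_bound_of_continuousOn hp
  refine ii_of_bound ((hp.mono Ioc_subset_Icc_self).mul N_contOn) (C := C * 7) fun u hu => ?_
  have h1 := hC u ⟨hu.1.le, hu.2⟩
  rw [norm_eq_abs] at h1
  rw [abs_mul, abs_of_nonneg (N_nonneg hu)]
  have h2 := mul_le_mul h1 (N_le hu) (N_nonneg hu) ((abs_nonneg _).trans h1)
  calc _ ≤ _ := h2
    _ = C * 7 / √u := by ring

/-- the moments, normalised -/
noncomputable def Wm (n : ℕ) : ℝ := 2 * √2 * ∫ T in (0 : ℝ)..1, T ^ n * N T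

lemma int_sqrt_inv : ∫ T in (0 : ℝ)..1, 7 / √T = 14 := by
  have h := integral_rpow (a := 0) (b := 1) (r := -(1 / 2)) (Or.inl (by norm_num))
  have h2 : ∫ T in (0 : ℝ)..1, 7 / √T = ∫ T in (0 : ℝ)..1, 7 * T ^ (-(1 / 2) : ℝ) := by
    refine intervalIntegral.integral_congr_ae (ae_of_all _ fun u hu => ?_)
    rw [uIoc_of_le zero_le_one] at hu
    rw [rpow_m12 hu.1]
    ring
  rw [h2, intervalIntegral.integral_const_mul, h]
  norm_num

lemma int_N_le : ∫ T in (0 : ℝ)..1, N T ≤ 14 := by
  rw [← int_sqrt_inv]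
  have i1 : IntervalIntegrable N volume 0 1 := by
    have := ii_mul_N (p := fun _ => 1) (by fun_prop)
    simpa using this
  have i2 : IntervalIntegrable (fun T : ℝ => 7 / √T) volume 0 1 :=
    ii_of_bound (C := 7) (ContinuousOn.div (by fun_prop) (by fun_prop) fun u hu =>
      (sqrt_pos.2 hu.1).ne') fun u hu => by rw [abs_of_nonneg (by positivity)]
  refine intervalIntegral.integral_mono_on_of_le_Ioo zero_le_one i1 i2 fun x hx =>
    N_le ⟨hx.1, hx.2.le⟩

/-- T M extended by zero is continuous -/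
lemma TM_cont : ContinuousOn (fun T => T * M T) (Icc 0 1) :=
  contOn_Icc (continuousOn_id.mul M_contOn) (by simpa using TM_to)

lemma M_one : M 1 = 0 := by
  have h : H178.Flow3.K 1 = 0 := by
    unfold H178.Flow3.K
    exact intervalIntegral.integral_same
  rw [M, h, mul_zero]

/-- the operator of the test functions -/
def Lam (p : List ℚ) : List ℚ :=
  padd (pmul [3, 4, 1] (padd p (0 :: pder p))) (0 :: 0 :: p)

lemma ev_Lam (p : List ℚ) (T : ℝ) : ev (Lam p) T
    = (3 + 4 * T + T ^ 2) * (ev p T + T * ev (pder p) T) + T ^ 2 * ev p T := by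
  unfold Lam
  rw [ev_padd, ev_pmul, ev_padd, ev_cons 0 (pder p), ev_cons 0 (0 :: p), ev_cons 0 p]
  simp only [ev_cons, ev_nil]
  push_cast
  ring

/-- the identity of the test functions -/
lemma test_id (p : List ℚ) : ∫ T in (0 : ℝ)..1, ev (Lam p) T * N T
    = 27 * ∫ T in (0 : ℝ)..1, ev p T * (j T / (3 - T)) := by
  have hc := continuous_ev p
  have i1 := ii_mul_N (p := ev (Lam p)) (continuous_ev _).continuousOn
  have i2 : IntervalIntegrable (fun T => ev p T * (j T / (3 - T))) volume 0 1 :=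
    ii_of_contOn (hc.continuousOn.mul jg_cont)
  have h := int_deriv (F := fun T => (3 + T) * ev p T * (T * M T))
    (f := fun T => ev (Lam p) T * N T - 27 * (ev p T * (j T / (3 - T)))) ?_ ?_
    (i1.sub (i2.const_mul _))
  · rw [intervalIntegral.integral_sub i1 (i2.const_mul _), intervalIntegral.integral_const_mul,
      M_one] at h
    linarith
  · exact ContinuousOn.mul (by fun_prop) TM_cont
  · intro T hT
    have h1 : HasDerivAt (fun T : ℝ => 3 + T) 1 T := by
      simpa using (hasDerivAt_id T).const_add 3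
    refine ((h1.fun_mul (hasDerivAt_ev p)).fun_mul ((hasDerivAt_id T).fun_mul
      (hasDerivAt_M hT))).congr_deriv ?_
    rw [ev_Lam]
    unfold N
    have h0 := hT.1.ne'
    have h1 : (1 : ℝ) + T ≠ 0 := by linarith [hT.1]
    have h3 : (3 : ℝ) + T ≠ 0 := by linarith [hT.1]
    have h4 : (3 : ℝ) - T ≠ 0 := by linarith [hT.2]
    have h9 : (9 : ℝ) - T ^ 2 ≠ 0 := (nine_pos ⟨hT.1, hT.2.le⟩).ne'
    have e9 : (9 : ℝ) - T ^ 2 = (3 - T) * (3 + T) := by ring
    simp only [id, e9]
    field_simp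
    ring

/-- integrals of a polynomial times j / (3 - T) -/
lemma int_lin_G : ∀ (p : List ℚ) (n : ℕ),
    2 * √2 * ∫ T in (0 : ℝ)..1, T ^ n * ev p T * (j T / (3 - T)) = lin p n Gm
  | [], n => by simp [lin]
  | c :: p, n => by
    have ih := int_lin_G p (n + 1)
    have hc := continuous_ev p
    have h2 : (fun T : ℝ => T ^ n * ev (c :: p) T * (j T / (3 - T)))
        = fun T => c * (T ^ n * (j T / (3 - T))) + T ^ (n + 1) * ev p T * (j T / (3 - T)) := by
      funext T
      rw [ev_cons]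
      ring
    have i1 : IntervalIntegrable (fun T => T ^ n * (j T / (3 - T))) volume 0 1 :=
      ii_of_contOn ((continuousOn_pow n).mul jg_cont)
    have i2 : IntervalIntegrable (fun T => T ^ (n + 1) * ev p T * (j T / (3 - T))) volume 0 1 :=
      ii_of_contOn (((continuousOn_pow _).mul hc.continuousOn).mul jg_cont)
    rw [h2, intervalIntegral.integral_add (i1.const_mul _) i2, intervalIntegral.integral_const_mul,
      mul_add, ih, lin]
    unfold Gm
    ring

/-- the recursion -/
lemma Wm_rec (n : ℕ) : (n + 2) * Wm (n + 2) + 4 * (n + 1) * Wm (n + 1) + 3 * (n + 1) * Wm n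
    = 27 * Gm n := by
  have i0 : ∀ k : ℕ, IntervalIntegrable (fun T => T ^ k * N T) volume 0 1 := fun k =>
    ii_mul_N (continuousOn_pow k)
  have i2 : IntervalIntegrable (fun T => T ^ n * (j T / (3 - T))) volume 0 1 :=
    ii_of_contOn ((continuousOn_pow n).mul jg_cont)
  have h := int_deriv (F := fun T => (3 + T) * T ^ n * (T * M T))
    (f := fun T => (n + 2) * (T ^ (n + 2) * N T) + 4 * (n + 1) * (T ^ (n + 1) * N T)
      + 3 * (n + 1) * (T ^ n * N T) - 27 * (T ^ n * (j T / (3 - T)))) ?_ ?_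
    (((((i0 (n + 2)).const_mul _).add ((i0 (n + 1)).const_mul _)).add ((i0 n).const_mul _)).sub
      (i2.const_mul _))
  · rw [intervalIntegral.integral_sub ((((i0 (n + 2)).const_mul _).add
      ((i0 (n + 1)).const_mul _)).add ((i0 n).const_mul _)) (i2.const_mul _),
      intervalIntegral.integral_add (((i0 (n + 2)).const_mul _).add
      ((i0 (n + 1)).const_mul _)) ((i0 n).const_mul _),
      intervalIntegral.integral_add ((i0 (n + 2)).const_mul _)
      ((i0 (n + 1)).const_mul _), intervalIntegral.integral_const_mul,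
      intervalIntegral.integral_const_mul, intervalIntegral.integral_const_mul,
      intervalIntegral.integral_const_mul, M_one] at h
    unfold Wm Gm
    simp only [mul_zero, zero_mul, sub_zero] at h
    linear_combination 2 * √2 * h
  · exact ContinuousOn.mul (by fun_prop) TM_cont
  · intro T hT
    have h1 : HasDerivAt (fun T : ℝ => 3 + T) 1 T := by
      simpa using (hasDerivAt_id T).const_add 3
    refine ((h1.fun_mul (hasDerivAt_pow n T)).fun_mul ((hasDerivAt_id T).fun_mul
      (hasDerivAt_M hT))).congr_deriv ?_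
    unfold N
    have h0 := hT.1.ne'
    have h1 : (1 : ℝ) + T ≠ 0 := by linarith [hT.1]
    have h3 : (3 : ℝ) + T ≠ 0 := by linarith [hT.1]
    have h4 : (3 : ℝ) - T ≠ 0 := by linarith [hT.2]
    have e9 : (9 : ℝ) - T ^ 2 = (3 - T) * (3 + T) := by ring
    simp only [id, e9]
    rcases n with _ | n
    · simp only [Nat.cast_zero, pow_zero]
      field_simp
      ring
    · push_cast
      field_simp
      ring

/-- the moments at the top -/
lemma Wm_top {p : List ℚ} {k : ℕ} {δ : ℚ}
    (hδ : ∀ T ∈ Icc (0 : ℝ) 1, |ev (Lam p) T - T ^ k| ≤ δ) :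
    |Wm k - 27 * lin p 0 Gm| ≤ 42 * δ := by
  have hδ0 : (0 : ℝ) ≤ δ := (abs_nonneg _).trans (hδ 0 ⟨le_rfl, zero_le_one⟩)
  have i1 := ii_mul_N (p := ev (Lam p)) (continuous_ev _).continuousOn
  have i0 : IntervalIntegrable (fun T => T ^ k * N T) volume 0 1 := ii_mul_N (continuousOn_pow k)
  have h1 := test_id p
  have h2 := int_lin_G p 0
  simp only [pow_zero, one_mul] at h2
  have e1 : Wm k - 27 * lin p 0 Gm
      = -(2 * √2 * ∫ T in (0 : ℝ)..1, (ev (Lam p) T * N T - T ^ k * N T)) := by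
    rw [intervalIntegral.integral_sub i1 i0, h1, ← h2]
    unfold Wm
    ring
  have iN : IntervalIntegrable (fun T => δ * N T) volume 0 1 := ii_mul_N (by fun_prop)
  have h3 : |∫ T in (0 : ℝ)..1, (ev (Lam p) T * N T - T ^ k * N T)| ≤ δ * 14 := by
    have h4 := intervalIntegral.norm_integral_le_of_norm_le (zero_le_one' ℝ)
      (f := fun T => ev (Lam p) T * N T - T ^ k * N T) (g := fun T => δ * N T)
      (ae_of_all _ fun T hT => ?_) iN
    · rw [norm_eq_abs, intervalIntegral.integral_const_mul] at h4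
      exact h4.trans (mul_le_mul_of_nonneg_left int_N_le hδ0)
    · have hT' : T ∈ Ioc (0 : ℝ) 1 := hT
      rw [← sub_mul, norm_mul, norm_eq_abs, norm_eq_abs, abs_of_nonneg (N_nonneg hT')]
      exact mul_le_mul_of_nonneg_right (hδ T ⟨hT'.1.le, hT'.2⟩) (N_nonneg hT')
  rw [e1, abs_neg, abs_mul, abs_of_nonneg (by positivity)]
  have hs2 : √2 ≤ 3 / 2 := by
    rw [sqrt_le_left (by norm_num)]
    norm_num
  have := mul_le_mul hs2 h3 (abs_nonneg _) (by norm_num)
  calc 2 * √2 * |∫ T in (0 : ℝ)..1, (ev (Lam p) T * N T - T ^ k * N T)|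
      = 2 * (√2 * |∫ T in (0 : ℝ)..1, (ev (Lam p) T * N T - T ^ k * N T)|) := by ring
    _ ≤ 2 * (3 / 2 * (δ * 14)) := by linarith
    _ = 42 * δ := by ring

end Vale.Agent.P224.R2.H176.F3
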